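import Vale.Agent.P315.C.Alg

/-!
P315, milestone 2: labels with classes.

Positions are in the moving frame (a diagonal keeps its position). The box of a label
`enc κ k c` of level `j` is the interval `[k W, (k + 2) W]` of positions with
`W = wd j κ = 2 ^ κ * w0 * M ^ j`, `M = 2 ^ m`; `κ` is the class, `c` the accumulated variation of
the class since the root. The children are the boxes inside the box, of any class whose absolute
width is not larger; the penalty of a label is `D1` times the variation of the class.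
-/

set_option autoImplicit false

namespace Vale.Agent.P315.H95

open Finset

/-! ### Labels -/

/-- Label of class `κ`, box number `k`, accumulated variation `c`. -/
def enc (κ k c : ℕ) : ℕ := Nat.pair κ (Nat.pair k c)
/-- Class of a label. -/
def cl (a : ℕ) : ℕ := (Nat.unpair a).1
/-- Box number of a label. -/
def bx (a : ℕ) : ℕ := (Nat.unpair (Nat.unpair a).2).1
/-- Accumulated variation of a label. -/
def ac (a : ℕ) : ℕ := (Nat.unpair (Nat.unpair a).2).2

@[simp] theorem cl_enc (κ k c : ℕ) : cl (enc κ k c) = κ := by simp [cl, enc]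
@[simp] theorem bx_enc (κ k c : ℕ) : bx (enc κ k c) = k := by simp [bx, enc]
@[simp] theorem ac_enc (κ k c : ℕ) : ac (enc κ k c) = c := by simp [ac, enc]
theorem enc_eta (a : ℕ) : enc (cl a) (bx a) (ac a) = a := by simp [enc, cl, bx, ac]

theorem enc_inj {κ k c κ' k' c' : ℕ} (h : enc κ k c = enc κ' k' c') :
    κ = κ' ∧ k = k' ∧ c = c' := by
  have h1 := congrArg cl h
  have h2 := congrArg bx h
  have h3 := congrArg ac h
  simp only [cl_enc, bx_enc, ac_enc] at h1 h2 h3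
  exact ⟨h1, h2, h3⟩

/-- Half width of the boxes of class `κ`, level `j`. -/
def wd (m w0 j κ : ℕ) : ℕ := 2 ^ κ * (w0 * (2 ^ m) ^ j)

/-- The position `p` is in the box of the label `a` of level `j`. -/
def InBox (m w0 j a p : ℕ) : Prop :=
  bx a * wd m w0 j (cl a) ≤ p ∧ p ≤ (bx a + 2) * wd m w0 j (cl a)

/-- Labels of the children of a region with label `a`. -/
def kids (m Kc a : ℕ) : Finset ℕ :=
  ((range (Kc + 1)).filter fun κ' => κ' ≤ cl a + m).biUnion fun κ' =>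
    (Icc (bx a * 2 ^ (cl a + m - κ')) ((bx a + 2) * 2 ^ (cl a + m - κ') - 2)).image fun k' =>
      enc κ' k' (ac a + Nat.dist κ' (cl a))

theorem mem_kids {m Kc a a' : ℕ} : a' ∈ kids m Kc a ↔ cl a' ≤ Kc ∧ cl a' ≤ cl a + m ∧
    bx a * 2 ^ (cl a + m - cl a') ≤ bx a' ∧ bx a' + 2 ≤ (bx a + 2) * 2 ^ (cl a + m - cl a') ∧
    ac a' = ac a + Nat.dist (cl a') (cl a) := by
  have hR : ∀ κ', 2 ≤ (bx a + 2) * 2 ^ (cl a + m - κ') := fun κ' =>
    le_trans (by omega : 2 ≤ (bx a + 2) * 1) (Nat.mul_le_mul_left _ Nat.one_le_two_pow)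
  constructor
  · intro h
    obtain ⟨κ', hκ, h⟩ := mem_biUnion.1 h
    obtain ⟨hκ1, hκ2⟩ := mem_filter.1 hκ
    obtain ⟨k', hk, rfl⟩ := mem_image.1 h
    obtain ⟨h1, h2⟩ := mem_Icc.1 hk
    have := hR κ'
    simp only [cl_enc, bx_enc, ac_enc, and_true]
    exact ⟨Nat.lt_succ_iff.1 (mem_range.1 hκ1), hκ2, h1, by omega⟩
  · rintro ⟨h1, h2, h3, h4, h5⟩
    refine mem_biUnion.2 ⟨cl a', mem_filter.2 ⟨mem_range.2 (by omega), h2⟩,
      mem_image.2 ⟨bx a', mem_Icc.2 ⟨h3, by have := hR (cl a'); omega⟩, ?_⟩⟩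
    rw [← h5, enc_eta]

/-- The geometry of milestone 2. -/
def clsPar (m ℓ μ B w0 J S H Kc D1 : ℕ) : C.Par where
  M := 2 ^ m
  ℓ := ℓ
  μ := μ
  B := B
  sh := 2
  adm := fun p q => Nat.dist p q ≤ ℓ / 2
  J := J
  S := S
  H := H
  kids := fun _ a => kids m Kc a
  pen := fun _ _ a x => D1 * (ac x - ac a)
  cov := fun a p => InBox m w0 0 a p

/-! ### Geometry of the boxes -/

theorem wd_pos {m w0 : ℕ} (hw : 0 < w0) (j κ : ℕ) : 0 < wd m w0 j κ := by
  unfold wd; positivity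

theorem wd_succ {m w0 j κ κ' : ℕ} (h : κ' ≤ κ + m) :
    wd m w0 (j + 1) κ = 2 ^ (κ + m - κ') * wd m w0 j κ' := by
  unfold wd
  have h1 : 2 ^ κ * 2 ^ m = 2 ^ (κ + m - κ') * 2 ^ κ' := by
    rw [← pow_add, ← pow_add, Nat.sub_add_cancel h]
  calc 2 ^ κ * (w0 * (2 ^ m) ^ (j + 1)) = (2 ^ κ * 2 ^ m) * (w0 * (2 ^ m) ^ j) := by
        rw [pow_succ]; ring
    _ = _ := by rw [h1]; ring

/-- The boxes of the children are inside the box. -/
theorem inBox_of_kid {m w0 Kc j a a' p : ℕ} (h : a' ∈ kids m Kc a)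
    (hp : InBox m w0 j a' p) : InBox m w0 (j + 1) a p := by
  obtain ⟨-, h2, h3, h4, -⟩ := mem_kids.1 h
  obtain ⟨p1, p2⟩ := hp
  unfold InBox
  rw [wd_succ (j := j) (w0 := w0) h2]
  constructor
  · calc bx a * (2 ^ (cl a + m - cl a') * wd m w0 j (cl a'))
        = bx a * 2 ^ (cl a + m - cl a') * wd m w0 j (cl a') := by ring
      _ ≤ bx a' * wd m w0 j (cl a') := Nat.mul_le_mul_right _ h3
      _ ≤ p := p1
  · calc p ≤ (bx a' + 2) * wd m w0 j (cl a') := p2
      _ ≤ (bx a + 2) * 2 ^ (cl a + m - cl a') * wd m w0 j (cl a') := Nat.mul_le_mul_right _ h4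
      _ = _ := by ring

theorem wd_le_of_kid {m w0 Kc j a a' : ℕ} (h : a' ∈ kids m Kc a) :
    wd m w0 j (cl a') ≤ wd m w0 (j + 1) (cl a) := by
  rw [wd_succ (mem_kids.1 h).2.1]
  exact Nat.le_mul_of_pos_left _ (by positivity)

/-- Penalties are additive along lineages. -/
theorem ac_le_of_kid {m Kc a a' : ℕ} (h : a' ∈ kids m Kc a) : ac a ≤ ac a' := by
  have := (mem_kids.1 h).2.2.2.2
  omega

theorem ac_le_of_desc {m ℓ μ B w0 J S H Kc D1 : ℕ} : ∀ (e j a x : ℕ),
    x ∈ (clsPar m ℓ μ B w0 J S H Kc D1).desc j e a → ac a ≤ ac x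
  | 0, _, a, x, h => by
    have : x = a := by simpa [C.Par.desc] using h
    rw [this]
  | e + 1, j, a, x, h => by
    obtain ⟨a', h1, h2⟩ := mem_biUnion.1 (show x ∈ ((clsPar m ℓ μ B w0 J S H Kc D1).kids j a).biUnion
      fun a' => (clsPar m ℓ μ B w0 J S H Kc D1).desc (j - 1) e a' from h)
    exact (ac_le_of_kid h1).trans (ac_le_of_desc e (j - 1) a' x h2)

theorem pen_add {m ℓ μ B w0 J S H Kc D1 : ℕ} {j e a a' x : ℕ}
    (h : a' ∈ (clsPar m ℓ μ B w0 J S H Kc D1).kids j a)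
    (hx : x ∈ (clsPar m ℓ μ B w0 J S H Kc D1).desc (j - 1) e a') :
    (clsPar m ℓ μ B w0 J S H Kc D1).pen j 1 a a' +
      (clsPar m ℓ μ B w0 J S H Kc D1).pen (j - 1) e a' x =
      (clsPar m ℓ μ B w0 J S H Kc D1).pen j (e + 1) a x := by
  have h1 : ac a ≤ ac a' := ac_le_of_kid h
  have h2 := ac_le_of_desc e (j - 1) a' x hx
  show D1 * (ac a' - ac a) + D1 * (ac x - ac a') = D1 * (ac x - ac a)
  rw [← Nat.mul_add]
  congr 1
  omega

end Vale.Agent.P315.H95
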