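import Vale.Agent.P315.H95.Chain

/-! P315, milestone 2: boxes and labels of the optimal path. -/

set_option autoImplicit false

namespace Vale.Agent.P315.H95

open Finset H869

/-- Smallest position of the path on the slab `i` of level `j` (row boundaries, closed slab). -/
noncomputable def lo (m : ℕ) (pos : ℕ → ℕ) (j i : ℕ) : ℕ :=
  sInf (pos '' Set.Icc (i * (2 ^ m) ^ j) ((i + 1) * (2 ^ m) ^ j))

theorem lo_mem (m : ℕ) (pos : ℕ → ℕ) (j i : ℕ) :
    ∃ r, i * (2 ^ m) ^ j ≤ r ∧ r ≤ (i + 1) * (2 ^ m) ^ j ∧ pos r = lo m pos j i := by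
  have hne : (pos '' Set.Icc (i * (2 ^ m) ^ j) ((i + 1) * (2 ^ m) ^ j)).Nonempty :=
    ⟨_, _, ⟨le_rfl, Nat.mul_le_mul_right _ (by omega)⟩, rfl⟩
  obtain ⟨r, hr, h⟩ := Nat.sInf_mem hne
  exact ⟨r, hr.1, hr.2, h⟩

theorem lo_le {m : ℕ} {pos : ℕ → ℕ} {j i r : ℕ} (h1 : i * (2 ^ m) ^ j ≤ r)
    (h2 : r ≤ (i + 1) * (2 ^ m) ^ j) : lo m pos j i ≤ pos r :=
  Nat.sInf_le ⟨r, ⟨h1, h2⟩, rfl⟩

theorem dist_pos_le {S0 pos : ℕ → ℕ} (hpos : ∀ i, Nat.dist (pos i) (pos (i + 1)) ≤ S0 i)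
    (a : ℕ) : ∀ e : ℕ, Nat.dist (pos a) (pos (a + e)) ≤ ∑ r ∈ range e, S0 (a + r)
  | 0 => by simp [Nat.dist_self]
  | e + 1 => by
    rw [sum_range_succ]
    exact (Nat.dist.triangle_inequality _ (pos (a + e)) _).trans
      (Nat.add_le_add (dist_pos_le hpos a e) (hpos (a + e)))

theorem dist_slab {m : ℕ} {S0 pos : ℕ → ℕ}
    (hpos : ∀ i, Nat.dist (pos i) (pos (i + 1)) ≤ S0 i) {j i r r' : ℕ}
    (h1 : i * (2 ^ m) ^ j ≤ r) (h2 : r ≤ (i + 1) * (2 ^ m) ^ j)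
    (h1' : i * (2 ^ m) ^ j ≤ r') (h2' : r' ≤ (i + 1) * (2 ^ m) ^ j) :
    Nat.dist (pos r) (pos r') ≤ mass m S0 j i := by
  wlog hrr : r ≤ r' generalizing r r'
  · rw [Nat.dist_comm]
    exact this h1' h2' h1 h2 (by omega)
  obtain ⟨e, rfl⟩ := Nat.exists_eq_add_of_le hrr
  refine (dist_pos_le hpos r e).trans ?_
  obtain ⟨a, rfl⟩ := Nat.exists_eq_add_of_le h1
  unfold mass
  have h3 : a + e ≤ (2 ^ m) ^ j := by
    have : (i + 1) * (2 ^ m) ^ j = i * (2 ^ m) ^ j + (2 ^ m) ^ j := by ring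
    omega
  have h4 : ∑ r ∈ range e, S0 (i * (2 ^ m) ^ j + a + r) =
      ∑ r ∈ Ico a (a + e), S0 (i * (2 ^ m) ^ j + r) := by
    rw [sum_Ico_eq_sum_range, Nat.add_sub_cancel_left]
    exact sum_congr rfl fun r _ => by rw [Nat.add_assoc]
  rw [h4]
  refine sum_le_sum_of_subset fun r hr => ?_
  have := mem_Ico.1 hr
  exact mem_range.2 (by omega)

theorem pos_le_lo_add {m : ℕ} {S0 pos : ℕ → ℕ}
    (hpos : ∀ i, Nat.dist (pos i) (pos (i + 1)) ≤ S0 i) {j i r : ℕ}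
    (h1 : i * (2 ^ m) ^ j ≤ r) (h2 : r ≤ (i + 1) * (2 ^ m) ^ j) :
    pos r ≤ lo m pos j i + mass m S0 j i := by
  obtain ⟨r', a1, a2, h⟩ := lo_mem m pos j i
  have h3 := dist_slab hpos h1 h2 a1 a2
  rw [h] at h3
  have := Nat.dist_tri_right (lo m pos j i) (pos r)
  unfold Nat.dist at h3
  omega

/-- Box number at depth `d` above the row `x`. -/
noncomputable def kb (m w0 : ℕ) (S0 pos : ℕ → ℕ) (n κr x : ℕ) : ℕ → ℕ
  | 0 => 0
  | d + 1 => min
      (lo m pos (n - (d + 1)) (x / (2 ^ m) ^ (n - (d + 1))) /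
        wd m w0 (n - (d + 1)) (kc m w0 S0 n κr x (d + 1)))
      ((kb m w0 S0 pos n κr x d + 2) *
        2 ^ (kc m w0 S0 n κr x d + m - kc m w0 S0 n κr x (d + 1)) - 2)

theorem kb_congr {m w0 : ℕ} {S0 pos : ℕ → ℕ} {n κr x y d : ℕ}
    (h : x / (2 ^ m) ^ (n - d) = y / (2 ^ m) ^ (n - d)) : ∀ {e : ℕ}, e ≤ d →
    kb m w0 S0 pos n κr x e = kb m w0 S0 pos n κr y e
  | 0, _ => rfl
  | e + 1, he => by
    have h1 := kc_congr (m := m) (w0 := w0) (S0 := S0) (κr := κr) h (e := e + 1) he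
    have h2 := kc_congr (m := m) (w0 := w0) (S0 := S0) (κr := κr) h (e := e) (by omega)
    have h3 := div_pow_congr (m := m) (x := x) (y := y) (j := n - d) (j' := n - (e + 1))
      (by omega) h
    simp only [kb, h1, h2, h3, kb_congr h (show e ≤ d by omega)]

/-- The label of the path in the slab `i` of level `j`. -/
noncomputable def lab (m w0 : ℕ) (S0 pos : ℕ → ℕ) (n κr j i : ℕ) : ℕ :=
  enc (kc m w0 S0 n κr (i * (2 ^ m) ^ j) (n - j)) (kb m w0 S0 pos n κr (i * (2 ^ m) ^ j) (n - j))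
    (kv m w0 S0 n κr (i * (2 ^ m) ^ j) (n - j))

theorem lab_eq {m w0 : ℕ} {S0 pos : ℕ → ℕ} {n κr j : ℕ} (hj : j ≤ n) (x : ℕ) :
    lab m w0 S0 pos n κr j (x / (2 ^ m) ^ j) =
      enc (kc m w0 S0 n κr x (n - j)) (kb m w0 S0 pos n κr x (n - j))
        (kv m w0 S0 n κr x (n - j)) := by
  have h : x / (2 ^ m) ^ j * (2 ^ m) ^ j / (2 ^ m) ^ (n - (n - j)) =
      x / (2 ^ m) ^ (n - (n - j)) := by
    rw [Nat.sub_sub_self hj, Nat.mul_div_cancel _ (by positivity)]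
  unfold lab
  rw [kc_congr h le_rfl, kb_congr h le_rfl, kv_congr h]

/-- Hypotheses on the masses and on the positions of the path. -/
structure PathOK (m w0 Kc n κr : ℕ) (S0 pos : ℕ → ℕ) : Prop where
  w0_pos : 0 < w0
  le_S0 : ∀ i, w0 ≤ S0 i
  S0_le : ∀ i, S0 i ≤ 2 ^ Kc * w0
  dist_le : ∀ i, Nat.dist (pos i) (pos (i + 1)) ≤ S0 i
  root_le : mass m S0 n 0 ≤ wd m w0 n κr
  root_cl : κr ≤ Kc + 3
  root_box : ∀ r ≤ (2 ^ m) ^ n, pos r ≤ 2 * wd m w0 n κr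

variable {m w0 Kc n κr : ℕ} {S0 pos : ℕ → ℕ}

theorem PathOK.div_root (x : ℕ) (hx : x < (2 ^ m) ^ n) : x / (2 ^ m) ^ n = 0 :=
  Nat.div_eq_of_lt hx

theorem PathOK.mass_le (h : PathOK m w0 Kc n κr S0 pos) {x : ℕ} (hx : x < (2 ^ m) ^ n) {d : ℕ}
    (hd : d ≤ n) : mass m S0 (n - d) (x / (2 ^ m) ^ (n - d)) ≤
      wd m w0 (n - d) (kc m w0 S0 n κr x d) :=
  mass_le_wd h.w0_pos h.le_S0 x (by rw [Nat.div_eq_of_lt hx]; exact h.root_le) d hd

/-- The boxes contain the path. -/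
theorem PathOK.inBox (h : PathOK m w0 Kc n κr S0 pos) {x : ℕ} (hx : x < (2 ^ m) ^ n) : ∀ d, d ≤ n →
    ∀ r, x / (2 ^ m) ^ (n - d) * (2 ^ m) ^ (n - d) ≤ r →
      r ≤ (x / (2 ^ m) ^ (n - d) + 1) * (2 ^ m) ^ (n - d) →
      kb m w0 S0 pos n κr x d * wd m w0 (n - d) (kc m w0 S0 n κr x d) ≤ pos r ∧
      pos r ≤ (kb m w0 S0 pos n κr x d + 2) * wd m w0 (n - d) (kc m w0 S0 n κr x d)
  | 0, _, r, h1, h2 => by
    rw [Nat.sub_zero, Nat.div_eq_of_lt hx] at h1 h2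
    have h3 := h.root_box r (by omega)
    show 0 * _ ≤ _ ∧ pos r ≤ (0 + 2) * wd m w0 (n - 0) κr
    rw [Nat.sub_zero]
    omega
  | d + 1, hd, r, h1, h2 => by
    have hW := wd_pos (m := m) h.w0_pos (n - (d + 1)) (kc m w0 S0 n κr x (d + 1))
    set W := wd m w0 (n - (d + 1)) (kc m w0 S0 n κr x (d + 1)) with hWdef
    set R := 2 ^ (kc m w0 S0 n κr x d + m - kc m w0 S0 n κr x (d + 1)) with hR
    set i := x / (2 ^ m) ^ (n - (d + 1)) with hi
    have hm : mass m S0 (n - (d + 1)) i ≤ W := h.mass_le hx hd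
    have h3 := pos_le_lo_add h.dist_le h1 h2
    have h4 := lo_le (pos := pos) h1 h2
    have h5 : kb m w0 S0 pos n κr x (d + 1) = min (lo m pos (n - (d + 1)) i / W)
        ((kb m w0 S0 pos n κr x d + 2) * R - 2) := rfl
    have h6 : wd m w0 (n - d) (kc m w0 S0 n κr x d) = R * W := by
      rw [show n - d = n - (d + 1) + 1 by omega]
      exact wd_succ (lim_succ_le m _ κr d)
    have hnd : n - d = n - (d + 1) + 1 := by omega
    have hpar : x / (2 ^ m) ^ (n - d) = i / 2 ^ m := by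
      rw [hnd, pow_succ, ← Nat.div_div_eq_div_mul]
    have hI1 : i / 2 ^ m * 2 ^ m ≤ i := Nat.div_mul_le_self _ _
    have hI2 : i + 1 ≤ (i / 2 ^ m + 1) * 2 ^ m := by
      have := Nat.lt_div_mul_add (a := i) (b := 2 ^ m) (by positivity)
      have h7 : (i / 2 ^ m + 1) * 2 ^ m = i / 2 ^ m * 2 ^ m + 2 ^ m := by ring
      omega
    have ih := PathOK.inBox h hx d (by omega) r
      (by
        rw [hpar, hnd, pow_succ]
        calc i / 2 ^ m * ((2 ^ m) ^ (n - (d + 1)) * 2 ^ m)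
            = i / 2 ^ m * 2 ^ m * (2 ^ m) ^ (n - (d + 1)) := by ring
          _ ≤ i * (2 ^ m) ^ (n - (d + 1)) := Nat.mul_le_mul_right _ hI1
          _ ≤ r := h1)
      (by
        rw [hpar, hnd, pow_succ]
        calc r ≤ (i + 1) * (2 ^ m) ^ (n - (d + 1)) := h2
          _ ≤ (i / 2 ^ m + 1) * 2 ^ m * (2 ^ m) ^ (n - (d + 1)) := Nat.mul_le_mul_right _ hI2
          _ = _ := by ring)
    rw [h6] at ih
    constructor
    · calc kb m w0 S0 pos n κr x (d + 1) * W ≤ lo m pos (n - (d + 1)) i / W * W :=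
          Nat.mul_le_mul_right _ (by rw [h5]; exact min_le_left _ _)
        _ ≤ lo m pos (n - (d + 1)) i := Nat.div_mul_le_self _ _
        _ ≤ pos r := h4
    · rcases min_choice (lo m pos (n - (d + 1)) i / W)
        ((kb m w0 S0 pos n κr x d + 2) * R - 2) with hc | hc
      · rw [h5, hc]
        have h8 := Nat.lt_div_mul_add (a := lo m pos (n - (d + 1)) i) (b := W) hW
        calc pos r ≤ lo m pos (n - (d + 1)) i + mass m S0 (n - (d + 1)) i := h3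
          _ ≤ lo m pos (n - (d + 1)) i / W * W + W + W := by omega
          _ = _ := by ring
      · rw [h5, hc]
        have hR1 : 1 ≤ R := Nat.one_le_two_pow
        have h9 : 2 ≤ (kb m w0 S0 pos n κr x d + 2) * R := by
          calc 2 ≤ (kb m w0 S0 pos n κr x d + 2) * 1 := by omega
            _ ≤ _ := Nat.mul_le_mul_left _ hR1
        rw [Nat.sub_add_cancel h9, mul_assoc]
        exact ih.2

/-- The box of a child is inside the box. -/
theorem PathOK.kb_sub (h : PathOK m w0 Kc n κr S0 pos) {x : ℕ} (hx : x < (2 ^ m) ^ n) {d : ℕ}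
    (hd : d < n) :
    kb m w0 S0 pos n κr x d * 2 ^ (kc m w0 S0 n κr x d + m - kc m w0 S0 n κr x (d + 1)) ≤
      kb m w0 S0 pos n κr x (d + 1) ∧
    kb m w0 S0 pos n κr x (d + 1) + 2 ≤ (kb m w0 S0 pos n κr x d + 2) *
      2 ^ (kc m w0 S0 n κr x d + m - kc m w0 S0 n κr x (d + 1)) := by
  have hW := wd_pos (m := m) h.w0_pos (n - (d + 1)) (kc m w0 S0 n κr x (d + 1))
  set W := wd m w0 (n - (d + 1)) (kc m w0 S0 n κr x (d + 1)) with hWdef
  set R := 2 ^ (kc m w0 S0 n κr x d + m - kc m w0 S0 n κr x (d + 1)) with hR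
  set i := x / (2 ^ m) ^ (n - (d + 1)) with hi
  have h5 : kb m w0 S0 pos n κr x (d + 1) = min (lo m pos (n - (d + 1)) i / W)
      ((kb m w0 S0 pos n κr x d + 2) * R - 2) := rfl
  have h6 : wd m w0 (n - d) (kc m w0 S0 n κr x d) = R * W := by
    rw [show n - d = n - (d + 1) + 1 by omega]
    exact wd_succ (lim_succ_le m _ κr d)
  have hR1 : 1 ≤ R := Nat.one_le_two_pow
  have h9 : kb m w0 S0 pos n κr x d * R + 2 ≤ (kb m w0 S0 pos n κr x d + 2) * R := by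
    nlinarith
  obtain ⟨r, a1, a2, hr⟩ := lo_mem m pos (n - (d + 1)) i
  have hnd : n - d = n - (d + 1) + 1 := by omega
  have hpar : x / (2 ^ m) ^ (n - d) = i / 2 ^ m := by
    rw [hnd, pow_succ, ← Nat.div_div_eq_div_mul]
  have hI1 : i / 2 ^ m * 2 ^ m ≤ i := Nat.div_mul_le_self _ _
  have hI2 : i + 1 ≤ (i / 2 ^ m + 1) * 2 ^ m := by
    have := Nat.lt_div_mul_add (a := i) (b := 2 ^ m) (by positivity)
    have h7 : (i / 2 ^ m + 1) * 2 ^ m = i / 2 ^ m * 2 ^ m + 2 ^ m := by ring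
    omega
  have ih := (h.inBox hx d (by omega) r
    (by
      rw [hpar, hnd, pow_succ]
      calc i / 2 ^ m * ((2 ^ m) ^ (n - (d + 1)) * 2 ^ m)
          = i / 2 ^ m * 2 ^ m * (2 ^ m) ^ (n - (d + 1)) := by ring
        _ ≤ i * (2 ^ m) ^ (n - (d + 1)) := Nat.mul_le_mul_right _ hI1
        _ ≤ r := a1)
    (by
      rw [hpar, hnd, pow_succ]
      calc r ≤ (i + 1) * (2 ^ m) ^ (n - (d + 1)) := a2
        _ ≤ (i / 2 ^ m + 1) * 2 ^ m * (2 ^ m) ^ (n - (d + 1)) := Nat.mul_le_mul_right _ hI2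
        _ = _ := by ring)).1
  rw [h6, hr] at ih
  constructor
  · rw [h5]
    refine le_min ?_ (by omega)
    rw [Nat.le_div_iff_mul_le hW, mul_assoc]
    exact ih
  · have : kb m w0 S0 pos n κr x (d + 1) ≤ (kb m w0 S0 pos n κr x d + 2) * R - 2 := by
      rw [h5]; exact min_le_right _ _
    omega

/-- The labels of the path are labels of children. -/
theorem PathOK.kid (h : PathOK m w0 Kc n κr S0 pos) {j i r : ℕ} (hj : j < n) (hr : r < 2 ^ m)
    (hi : i < (2 ^ m) ^ (n - (j + 1))) :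
    lab m w0 S0 pos n κr j (i * 2 ^ m + r) ∈
      kids m (Kc + 3) (lab m w0 S0 pos n κr (j + 1) i) := by
  set x := (i * 2 ^ m + r) * (2 ^ m) ^ j with hx
  have hT : 0 < (2 ^ m) ^ j := by positivity
  have e1 : x / (2 ^ m) ^ j = i * 2 ^ m + r := Nat.mul_div_cancel _ hT
  have e2 : x / (2 ^ m) ^ (j + 1) = i := by
    rw [pow_succ, ← Nat.div_div_eq_div_mul, e1, mul_comm i, Nat.mul_add_div (by positivity),
      Nat.div_eq_of_lt hr, add_zero]
  have hxn : x < (2 ^ m) ^ n := by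
    have h1 : i * 2 ^ m + r < (2 ^ m) ^ (n - j) := by
      have h2 : n - j = n - (j + 1) + 1 := by omega
      rw [h2, pow_succ]
      calc i * 2 ^ m + r < i * 2 ^ m + 2 ^ m := by omega
        _ = (i + 1) * 2 ^ m := by ring
        _ ≤ (2 ^ m) ^ (n - (j + 1)) * 2 ^ m := Nat.mul_le_mul_right _ hi
    calc x < (2 ^ m) ^ (n - j) * (2 ^ m) ^ j := Nat.mul_lt_mul_of_pos_right h1 hT
      _ = (2 ^ m) ^ n := by rw [← pow_add, Nat.sub_add_cancel hj.le]
  have l1 := lab_eq (m := m) (w0 := w0) (S0 := S0) (pos := pos) (κr := κr) hj.le x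
  have l2 := lab_eq (m := m) (w0 := w0) (S0 := S0) (pos := pos) (κr := κr)
    (show j + 1 ≤ n from hj) x
  rw [e1] at l1
  rw [e2] at l2
  set d := n - (j + 1) with hd
  have hd1 : n - j = d + 1 := by omega
  rw [hd1] at l1
  rw [l1, l2, mem_kids]
  simp only [cl_enc, bx_enc, ac_enc]
  have hb := h.kb_sub hxn (d := d) (by omega)
  refine ⟨kc_le h.w0_pos h.le_S0 h.S0_le h.root_cl (d + 1), lim_succ_le m _ κr d, hb.1, hb.2, ?_⟩
  show lvar m (hc m w0 S0 n x) κr (d + 1) = _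
  exact sum_range_succ _ _

/-- The boxes contain the path, in terms of the labels. -/
theorem PathOK.inBox_lab (h : PathOK m w0 Kc n κr S0 pos) {j i r : ℕ} (hj : j ≤ n)
    (hi : i < (2 ^ m) ^ (n - j)) (h1 : i * (2 ^ m) ^ j ≤ r) (h2 : r ≤ (i + 1) * (2 ^ m) ^ j) :
    InBox m w0 j (lab m w0 S0 pos n κr j i) (pos r) := by
  have hT : 0 < (2 ^ m) ^ j := by positivity
  have hxn : i * (2 ^ m) ^ j < (2 ^ m) ^ n := by
    calc i * (2 ^ m) ^ j < (2 ^ m) ^ (n - j) * (2 ^ m) ^ j := Nat.mul_lt_mul_of_pos_right hi hT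
      _ = (2 ^ m) ^ n := by rw [← pow_add, Nat.sub_add_cancel hj]
  have h3 := h.inBox hxn (n - j) (Nat.sub_le _ _) r
  rw [Nat.sub_sub_self hj, Nat.mul_div_cancel _ hT] at h3
  unfold InBox lab
  simp only [cl_enc, bx_enc]
  exact h3 h1 h2

/-- Mass and width of the label. -/
theorem PathOK.mass_le_lab (h : PathOK m w0 Kc n κr S0 pos) {j i : ℕ} (hj : j ≤ n)
    (hi : i < (2 ^ m) ^ (n - j)) :
    mass m S0 j i ≤ wd m w0 j (cl (lab m w0 S0 pos n κr j i)) := by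
  have hT : 0 < (2 ^ m) ^ j := by positivity
  have hxn : i * (2 ^ m) ^ j < (2 ^ m) ^ n := by
    calc i * (2 ^ m) ^ j < (2 ^ m) ^ (n - j) * (2 ^ m) ^ j := Nat.mul_lt_mul_of_pos_right hi hT
      _ = (2 ^ m) ^ n := by rw [← pow_add, Nat.sub_add_cancel hj]
  have h3 := h.mass_le hxn (Nat.sub_le n j)
  rw [Nat.sub_sub_self hj, Nat.mul_div_cancel _ hT] at h3
  unfold lab
  simp only [cl_enc]
  exact h3

theorem PathOK.wd_le_lab (h : PathOK m w0 Kc n κr S0 pos) {j i : ℕ} (hj : j < n) :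
    wd m w0 j (cl (lab m w0 S0 pos n κr j i)) ≤ 8 * mass m S0 j i := by
  have hT : 0 < (2 ^ m) ^ j := by positivity
  have h3 := wd_le_mass (m := m) h.w0_pos h.le_S0 n κr (i * (2 ^ m) ^ j) (n - (j + 1))
  have h4 : n - (n - (j + 1) + 1) = j := by omega
  have h5 : n - (j + 1) + 1 = n - j := by omega
  rw [h4, h5, Nat.mul_div_cancel _ hT] at h3
  unfold lab
  simp only [cl_enc]
  exact h3

theorem PathOK.cl_le (h : PathOK m w0 Kc n κr S0 pos) (j i : ℕ) :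
    cl (lab m w0 S0 pos n κr j i) ≤ Kc + 3 := by
  unfold lab
  simp only [cl_enc]
  exact kc_le h.w0_pos h.le_S0 h.S0_le h.root_cl _

theorem lab_root : lab m w0 S0 pos n κr n 0 = enc κr 0 0 := by
  unfold lab
  rw [Nat.sub_self]
  rfl

/-- Accumulated variation of the leaf label above the row `x`. -/
theorem ac_leaf_le (h : PathOK m w0 Kc n κr S0 pos) (x : ℕ) :
    (ac (lab m w0 S0 pos n κr 0 x) : ℤ) ≤
      ∑ e ∈ range n, |hc m w0 S0 n x (e + 1) - hc m w0 S0 n x e| + |hc m w0 S0 n x 0 - κr| := by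
  have h1 := kv_le (m := m) h.w0_pos h.le_S0 n κr x n
  unfold lab
  simp only [ac_enc, pow_zero, mul_one, Nat.sub_zero]
  exact h1

end Vale.Agent.P315.H95
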