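import Vale.Agent.P315.H95.Boxes

/-! P315, milestone 2: the mass-weighted average of the class variation of the leaves. -/

set_option autoImplicit false

namespace Vale.Agent.P315.H95

open Finset H869

variable {m w0 Kc n κr : ℕ} {S0 pos : ℕ → ℕ}

/-- Ancestor of the row `x` at level `j`. -/
def qq (m n : ℕ) (j : ℕ) (x : Fin ((2 ^ m) ^ n)) : ℕ := x.val / (2 ^ m) ^ j

theorem qq_nest (j : ℕ) (x y : Fin ((2 ^ m) ^ n)) (h : qq m n j x = qq m n j y) :
    qq m n (j + 1) x = qq m n (j + 1) y := by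
  unfold qq at *
  rw [pow_succ, ← Nat.div_div_eq_div_mul, ← Nat.div_div_eq_div_mul, h]

/-- Sum over a cell of the partition into slabs. -/
theorem sum_cell (f : ℕ → ℝ) {j : ℕ} (hj : j ≤ n) (x : Fin ((2 ^ m) ^ n)) :
    ∑ y ∈ cell (qq m n) j x, f y.val =
      ∑ r ∈ range ((2 ^ m) ^ j), f (x.val / (2 ^ m) ^ j * (2 ^ m) ^ j + r) := by
  have hT : 0 < (2 ^ m) ^ j := by positivity
  set i := x.val / (2 ^ m) ^ j with hi
  have hi2 : (i + 1) * (2 ^ m) ^ j ≤ (2 ^ m) ^ n := by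
    have h1 : i < (2 ^ m) ^ (n - j) := by
      rw [hi, Nat.div_lt_iff_lt_mul hT, ← pow_add, Nat.sub_add_cancel hj]
      exact x.isLt
    calc (i + 1) * (2 ^ m) ^ j ≤ (2 ^ m) ^ (n - j) * (2 ^ m) ^ j := Nat.mul_le_mul_right _ h1
      _ = _ := by rw [← pow_add, Nat.sub_add_cancel hj]
  have h1 : i * (2 ^ m) ^ j + (2 ^ m) ^ j = (i + 1) * (2 ^ m) ^ j := by ring
  rw [← sum_bij (i := fun (y : Fin ((2 ^ m) ^ n)) (_ : y ∈ cell (qq m n) j x) =>
    y.val - i * (2 ^ m) ^ j)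
    (t := range ((2 ^ m) ^ j))]
  · intro y hy
    have h2 : y.val / (2 ^ m) ^ j = i := mem_cell.1 hy
    have h3 := Nat.div_add_mod y.val ((2 ^ m) ^ j)
    have h4 := Nat.mod_lt y.val hT
    rw [h2, mul_comm] at h3
    exact mem_range.2 (by omega)
  · intro y hy y' hy' h
    have h2 : y.val / (2 ^ m) ^ j = i := mem_cell.1 hy
    have h2' : y'.val / (2 ^ m) ^ j = i := mem_cell.1 hy'
    have h3 := Nat.div_mul_le_self y.val ((2 ^ m) ^ j)
    have h3' := Nat.div_mul_le_self y'.val ((2 ^ m) ^ j)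
    rw [h2] at h3
    rw [h2'] at h3'
    exact Fin.ext (by omega)
  · intro r hr
    have hr' := mem_range.1 hr
    refine ⟨⟨i * (2 ^ m) ^ j + r, by omega⟩, ?_, by simp⟩
    refine mem_cell.2 ?_
    show (i * (2 ^ m) ^ j + r) / (2 ^ m) ^ j = i
    rw [mul_comm, Nat.mul_add_div hT, Nat.div_eq_of_lt hr', add_zero]
  · intro y hy
    have h2 : y.val / (2 ^ m) ^ j = i := mem_cell.1 hy
    have h3 := Nat.div_mul_le_self y.val ((2 ^ m) ^ j)
    rw [h2] at h3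
    congr 1
    omega

theorem avg_qq {j : ℕ} (hj : j ≤ n) (x : Fin ((2 ^ m) ^ n)) :
    H869.avg (qq m n) (fun _ => (1 : ℝ)) j (fun y => (S0 y.val : ℝ) / w0) x =
      (mass m S0 j (x.val / (2 ^ m) ^ j) : ℝ) / (w0 * (2 ^ m) ^ j : ℕ) := by
  have h1 := sum_cell (fun y => (S0 y : ℝ) / w0) hj x
  have h2 := sum_cell (fun _ => (1 : ℝ)) hj x
  unfold H869.avg
  simp only [one_mul]
  rw [h1, h2, sum_const, card_range, nsmul_eq_mul, mul_one, ← sum_div]
  unfold mass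
  push_cast
  rw [div_div]

theorem lg_qq {j : ℕ} (hj : j ≤ n) (x : Fin ((2 ^ m) ^ n)) :
    lg (qq m n) (fun _ => (1 : ℝ)) (fun y => (S0 y.val : ℝ) / w0) x j = ld m w0 S0 x.val j := by
  unfold lg ld
  rw [avg_qq hj]

theorem cls_qq {d : ℕ} (x : Fin ((2 ^ m) ^ n)) :
    cls (lg (qq m n) (fun _ => (1 : ℝ)) (fun y => (S0 y.val : ℝ) / w0) x) n d =
      hc m w0 S0 n x.val d := by
  -- the class only looks at the levels `n - e`
  have key : ∀ (L L' : ℕ → ℝ), (∀ i ≤ n, L i = L' i) → ∀ d, cls L n d = cls L' n d := by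
    intro L L' h d
    induction d with
    | zero => simp only [cls, h n le_rfl]
    | succ d ih => simp only [cls, ih, h (n - (d + 1)) (Nat.sub_le _ _)]
  exact key _ _ (fun i hi => lg_qq hi x) d

/-- Distance of the first class of the path to the class of the root. -/
theorem abs_hc_zero_le (h : PathOK m w0 Kc n κr S0 pos) (x : ℕ) (hx : x < (2 ^ m) ^ n) :
    |hc m w0 S0 n x 0 - κr| ≤ κr + 2 := by
  have h1 : hc m w0 S0 n x 0 = ⌈ld m w0 S0 x n⌉ + 1 := rfl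
  have h2 : ld m w0 S0 x n ≤ κr := by
    rw [ld_le_iff h.w0_pos h.le_S0, Nat.div_eq_of_lt hx]
    exact h.root_le
  have h3 : ⌈ld m w0 S0 x n⌉ ≤ κr := Int.ceil_le.2 (by exact_mod_cast h2)
  have h4 : (0 : ℤ) ≤ ⌈ld m w0 S0 x n⌉ := Int.ceil_nonneg (ld_nonneg h.w0_pos h.le_S0 x n)
  rw [h1, abs_le]
  constructor <;> omega

/-- **Class variation of the leaves.** -/
theorem PathOK.var_le (h : PathOK m w0 Kc n κr S0 pos) :
    ∑ x ∈ range ((2 ^ m) ^ n), (S0 x : ℝ) * ac (lab m w0 S0 pos n κr 0 x) ≤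
      (∑ x ∈ range ((2 ^ m) ^ n), (S0 x : ℝ)) *
        (2 / Real.log 2 * (Kc * Real.log 2 + 2 * √(2 * n * (Kc * Real.log 2))) + (κr + 2)) := by
  have hw0 : (0 : ℝ) < w0 := by exact_mod_cast h.w0_pos
  have hne : Nonempty (Fin ((2 ^ m) ^ n)) := ⟨⟨0, by positivity⟩⟩
  have hS : ∀ x, (0 : ℝ) < S0 x := fun x => by
    exact_mod_cast lt_of_lt_of_le h.w0_pos (h.le_S0 x)
  have hH : ∀ x : Fin ((2 ^ m) ^ n), 0 < (S0 x.val : ℝ) / w0 := fun x => div_pos (hS _) hw0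
  have key := sum_cls_le (q := qq m n) (w := fun _ => (1 : ℝ))
    (H := fun y => (S0 y.val : ℝ) / w0) (n := n) (B := Kc * Real.log 2) qq_nest
    (fun _ => one_pos) hH (by
      intro x
      rw [avg_qq (Nat.zero_le n), avg_qq le_rfl]
      have h1 : 0 ≤ Real.log ((mass m S0 n (x.val / (2 ^ m) ^ n) : ℝ) /
          (w0 * (2 ^ m) ^ n : ℕ)) := by
        apply Real.log_nonneg
        have h2 : 0 < w0 * (2 ^ m) ^ n := Nat.mul_pos h.w0_pos (by positivity)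
        rw [one_le_div (by exact_mod_cast h2)]
        exact_mod_cast mul_le_mass h.le_S0 n _
      have h3 : Real.log ((mass m S0 0 (x.val / (2 ^ m) ^ 0) : ℝ) / (w0 * (2 ^ m) ^ 0 : ℕ)) ≤
          Kc * Real.log 2 := by
        rw [mass_zero, pow_zero, Nat.div_one, mul_one, ← Real.log_pow]
        refine Real.log_le_log (div_pos (hS _) hw0) ?_
        rw [div_le_iff₀ hw0]
        exact_mod_cast h.S0_le _
      linarith)
  simp only [cls_qq] at key
  have hZ : (0 : ℝ) < ∑ x : Fin ((2 ^ m) ^ n), 1 * ((S0 x.val : ℝ) / w0) :=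
    sum_pos (fun x _ => by rw [one_mul]; exact hH x) univ_nonempty
  -- pass from EQ to sums
  have h5 : ∀ f : ℕ → ℝ, EQ (fun _ => (1 : ℝ)) (fun y : Fin ((2 ^ m) ^ n) => (S0 y.val : ℝ) / w0)
      (fun x => f x.val) = (∑ x ∈ range ((2 ^ m) ^ n), (S0 x : ℝ) * f x) /
        ∑ x ∈ range ((2 ^ m) ^ n), (S0 x : ℝ) := by
    intro f
    unfold EQ
    have e1 : ∑ x : Fin ((2 ^ m) ^ n), 1 * ((S0 x.val : ℝ) / w0) * f x.val =
        (∑ x ∈ range ((2 ^ m) ^ n), (S0 x : ℝ) * f x) / w0 := by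
      rw [← Fin.sum_univ_eq_sum_range (fun x => (S0 x : ℝ) * f x), sum_div]
      exact sum_congr rfl fun x _ => by ring
    have e2 : ∑ x : Fin ((2 ^ m) ^ n), 1 * ((S0 x.val : ℝ) / w0) =
        (∑ x ∈ range ((2 ^ m) ^ n), (S0 x : ℝ)) / w0 := by
      rw [← Fin.sum_univ_eq_sum_range (fun x => (S0 x : ℝ)), sum_div]
      exact sum_congr rfl fun x _ => by ring
    rw [e1, e2, div_div_div_cancel_right₀ hw0.ne']
  have hZ' : (0 : ℝ) < ∑ x ∈ range ((2 ^ m) ^ n), (S0 x : ℝ) :=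
    sum_pos (fun x _ => hS x) ⟨0, mem_range.2 (by positivity)⟩
  have key2 : ∑ e ∈ range n, (∑ x ∈ range ((2 ^ m) ^ n), (S0 x : ℝ) *
      ((|hc m w0 S0 n x (e + 1) - hc m w0 S0 n x e| : ℤ) : ℝ)) /
        (∑ x ∈ range ((2 ^ m) ^ n), (S0 x : ℝ)) ≤
      2 / Real.log 2 * (Kc * Real.log 2 + 2 * √(2 * n * (Kc * Real.log 2))) := by
    refine le_trans (le_of_eq ?_) key
    refine sum_congr rfl fun e _ => ?_
    exact (h5 fun x => ((|hc m w0 S0 n x (e + 1) - hc m w0 S0 n x e| : ℤ) : ℝ)).symm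
  rw [← sum_div, div_le_iff₀ hZ'] at key2
  have h6 : ∀ x ∈ range ((2 ^ m) ^ n), (S0 x : ℝ) * ac (lab m w0 S0 pos n κr 0 x) ≤
      ∑ e ∈ range n, (S0 x : ℝ) * ((|hc m w0 S0 n x (e + 1) - hc m w0 S0 n x e| : ℤ) : ℝ) +
        S0 x * (κr + 2) := by
    intro x hx
    have h7 := ac_leaf_le h x
    have h8 := abs_hc_zero_le h x (mem_range.1 hx)
    rw [← mul_sum, ← mul_add]
    refine mul_le_mul_of_nonneg_left ?_ (hS x).le
    have h9 : (ac (lab m w0 S0 pos n κr 0 x) : ℤ) ≤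
        ∑ e ∈ range n, |hc m w0 S0 n x (e + 1) - hc m w0 S0 n x e| + (κr + 2) := by linarith
    exact_mod_cast h9
  refine (sum_le_sum h6).trans ?_
  rw [sum_add_distrib, sum_comm, ← sum_mul, mul_add]
  have h10 := key2
  rw [mul_comm] at h10
  linarith

end Vale.Agent.P315.H95
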