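import Vale.Agent.P315.H846.Stmt2
import Vale.Agent.P315.C.StructRd

/-!
P315, milestone 2: the visible cost of a unit of the path.

For every read set (so for every label, machine, index) the certified cost of a slab between the
positions of the path is at most the cost of the path in the slab plus its weight.
-/

set_option autoImplicit false

namespace Vale.Agent.P315.H95

open Vale.Agent.P315 C Finset

variable {P : Par} {vis hid : Leaf} {n : ℕ}

/-- Visible cost of a slab, any read set. -/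
theorem cval_free (K : H808.Chain P vis hid n) (h0 : ∃ p, P.μ ∣ p ∧ p ≤ P.B ∧ P.adm p p)
    (R : Finset (ℕ × ℕ)) {j i : ℕ} (hj : j ≤ n) (hi : i < P.M ^ (n - j)) :
    (cval P vis hid R j i (K.pos (i * P.M ^ j)) (K.pos ((i + 1) * P.M ^ j)) : ℝ) ≤
      ∑ r ∈ range (P.M ^ j), (K.d (i * P.M ^ j + r) + K.w (i * P.M ^ j + r)) := by
  have h1 := H808.best_sum' P (known P vis hid R) (i * P.M ^ j) 1 (P.M ^ j)
    (fun m => K.pos (i * P.M ^ j + m)) h0
  simp only [Nat.mul_one, Nat.add_zero] at h1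
  have e1 : (i + 1) * P.M ^ j = i * P.M ^ j + P.M ^ j := by ring
  have hlt : ∀ r < P.M ^ j, i * P.M ^ j + r < P.M ^ n := by
    intro r hr
    calc i * P.M ^ j + r < i * P.M ^ j + P.M ^ j := by omega
      _ = (i + 1) * P.M ^ j := e1.symm
      _ ≤ P.M ^ (n - j) * P.M ^ j := Nat.mul_le_mul_right _ hi
      _ = P.M ^ n := by rw [← pow_add, Nat.sub_add_cancel hj]
  unfold cval
  rw [e1]
  refine (Nat.cast_le.2 h1).trans ?_
  push_cast
  refine sum_le_sum fun r hr => ?_
  exact K.free _ (hlt r (mem_range.1 hr)) R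

section

variable {mc : Mach} {ω : Rnd}

/-- The same in the notation of `H808.Along`. -/
theorem cR_free (K : H808.Chain P vis hid n) (h0 : ∃ p, P.μ ∣ p ∧ p ≤ P.B ∧ P.adm p p)
    (hle : ∀ i p q, P.adm p q → hid i p q ≤ vis i p q) {j i : ℕ} (hj : j ≤ n)
    (hi : i < P.M ^ (n - j)) (x : ℕ) (b : ℤ) :
    (cR P mc ω vis hid j i x b (K.pos (i * P.M ^ j)) (K.pos ((i + 1) * P.M ^ j)) : ℝ) ≤
      (K.along mc ω h0 hle).DE j i + (K.along mc ω h0 hle).W j i := by
  refine (cval_free K h0 _ hj hi).trans (le_of_eq ?_)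
  unfold H808.Along.DE H808.Along.W H808.bs
  rw [sum_add_distrib]
  simp only [H808.Chain.along, add_zero]

/-- Certified costs of a unit with the label `x` between any positions `p`, `q`: at most the cost of
the path, plus the weight, plus the shifts. -/
theorem cR_free_lip (K : H808.Chain P vis hid n) (h0 : ∃ p, P.μ ∣ p ∧ p ≤ P.B ∧ P.adm p p)
    (hle : ∀ i p q, P.adm p q → hid i p q ≤ vis i p q) {j i : ℕ} (hj : j ≤ n)
    (hi : i < P.M ^ (n - j)) (x : ℕ) (b : ℤ) (p q : ℕ) :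
    (cR P mc ω vis hid j i x b p q : ℝ) ≤
      (K.along mc ω h0 hle).DE j i + (K.along mc ω h0 hle).W j i +
        P.sh * Nat.dist p (K.pos (i * P.M ^ j)) +
        P.sh * Nat.dist (K.pos ((i + 1) * P.M ^ j)) q := by
  have hE : ∃ p q, H140.Ed P p q := by
    obtain ⟨p, h1, h2, h3⟩ := h0
    exact ⟨p, p, h1, h1, h2, h2, h3⟩
  have h1 := cR_lip (P := P) (mc := mc) (ω := ω) (vis := vis) (hid := hid) hE j i x b p
    (K.pos (i * P.M ^ j)) q (K.pos ((i + 1) * P.M ^ j))
  have h2 := cR_free (mc := mc) (ω := ω) K h0 hle hj hi x b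
  have h1' : (cR P mc ω vis hid j i x b p q : ℝ) ≤ P.sh * Nat.dist p (K.pos (i * P.M ^ j)) +
      cR P mc ω vis hid j i x b (K.pos (i * P.M ^ j)) (K.pos ((i + 1) * P.M ^ j)) +
      P.sh * Nat.dist (K.pos ((i + 1) * P.M ^ j)) q := by exact_mod_cast h1
  linarith

/-- The cost of the path is a lower bound of every certified cost of the slab. -/
theorem DE_le_cR (K : H808.Chain P vis hid n) (h0 : ∃ p, P.μ ∣ p ∧ p ≤ P.B ∧ P.adm p p)
    (hle : ∀ i p q, P.adm p q → hid i p q ≤ vis i p q)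
    (hlow : ∀ (R : Finset (ℕ × ℕ)) (j i : ℕ), j ≤ n → i < P.M ^ (n - j) →
      ∑ r ∈ Finset.range (P.M ^ j), K.d (i * P.M ^ j + r) ≤
        cval P vis hid R j i (K.pos (i * P.M ^ j)) (K.pos ((i + 1) * P.M ^ j))) {j i : ℕ}
    (hj : j ≤ n) (hi : i < P.M ^ (n - j)) (x : ℕ) (b : ℤ) :
    (K.along mc ω h0 hle).DE j i ≤
      cR P mc ω vis hid j i x b (K.pos (i * P.M ^ j)) (K.pos ((i + 1) * P.M ^ j)) := by
  refine le_trans (le_of_eq ?_) (hlow _ j i hj hi)
  unfold H808.Along.DE H808.bs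
  simp only [H808.Chain.along, add_zero]

/-- **Light units.** The certified cost of a unit with any label `x`, any index `b`, between any
positions, is at most that with any other label `y` and index `b'` between the positions of the path,
plus the weight, plus the shifts. -/
theorem cR_light (K : H808.Chain P vis hid n) (h0 : ∃ p, P.μ ∣ p ∧ p ≤ P.B ∧ P.adm p p)
    (hle : ∀ i p q, P.adm p q → hid i p q ≤ vis i p q)
    (hlow : ∀ (R : Finset (ℕ × ℕ)) (j i : ℕ), j ≤ n → i < P.M ^ (n - j) →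
      ∑ r ∈ Finset.range (P.M ^ j), K.d (i * P.M ^ j + r) ≤
        cval P vis hid R j i (K.pos (i * P.M ^ j)) (K.pos ((i + 1) * P.M ^ j))) {j i : ℕ}
    (hj : j ≤ n) (hi : i < P.M ^ (n - j)) (x y : ℕ) (b b' : ℤ) (p q : ℕ) :
    (cR P mc ω vis hid j i x b p q : ℝ) ≤
      cR P mc ω vis hid j i y b' (K.pos (i * P.M ^ j)) (K.pos ((i + 1) * P.M ^ j)) +
        (K.along mc ω h0 hle).W j i +
        P.sh * Nat.dist p (K.pos (i * P.M ^ j)) +
        P.sh * Nat.dist (K.pos ((i + 1) * P.M ^ j)) q := by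
  have h1 := cR_free_lip (mc := mc) (ω := ω) K h0 hle hj hi x b p q
  have h2 := DE_le_cR (mc := mc) (ω := ω) K h0 hle hlow hj hi y b'
  linarith

/-- Both bounds for the value of the chain itself, with any index. -/
theorem along_C_mem (K : H808.Chain P vis hid n) (h0 : ∃ p, P.μ ∣ p ∧ p ≤ P.B ∧ P.adm p p)
    (hle : ∀ i p q, P.adm p q → hid i p q ≤ vis i p q)
    (hlow : ∀ (R : Finset (ℕ × ℕ)) (j i : ℕ), j ≤ n → i < P.M ^ (n - j) →
      ∑ r ∈ Finset.range (P.M ^ j), K.d (i * P.M ^ j + r) ≤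
        cval P vis hid R j i (K.pos (i * P.M ^ j)) (K.pos ((i + 1) * P.M ^ j))) {j i : ℕ}
    (hj : j ≤ n) (hi : i < P.M ^ (n - j)) (b : ℤ) :
    (K.along mc ω h0 hle).DE j i ≤ (K.along mc ω h0 hle).C j i b ∧
      (K.along mc ω h0 hle).C j i b ≤
        (K.along mc ω h0 hle).DE j i + (K.along mc ω h0 hle).W j i :=
  ⟨DE_le_cR K h0 hle hlow hj hi _ b, cR_free K h0 hle hj hi _ b⟩

/-- The rows of the slab: displacement of the path in a slab is at most its weight. -/
theorem dist_le_W {m w0 Kc κr : ℕ} {S0 : ℕ → ℕ} (K : H808.Chain P vis hid n)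
    (h0 : ∃ p, P.μ ∣ p ∧ p ≤ P.B ∧ P.adm p p)
    (hle : ∀ i p q, P.adm p q → hid i p q ≤ vis i p q) (hM : P.M = 2 ^ m)
    (hp : PathOK m w0 Kc n κr S0 K.pos) (hw : ∀ i, K.w i = S0 i) (j i : ℕ) :
    (Nat.dist (K.pos (i * P.M ^ j)) (K.pos ((i + 1) * P.M ^ j)) : ℝ) ≤
      (K.along mc ω h0 hle).W j i := by
  have h1 := dist_slab (m := m) hp.dist_le (j := j) (i := i) (r := i * (2 ^ m) ^ j)
    (r' := (i + 1) * (2 ^ m) ^ j) le_rfl (Nat.mul_le_mul_right _ (by omega))
    (Nat.mul_le_mul_right _ (by omega)) le_rfl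
  have h2 : (K.along mc ω h0 hle).W j i = ((mass m S0 j i : ℕ) : ℝ) := by
    show ∑ r ∈ range (P.M ^ j), K.w (i * P.M ^ j + r) = _
    unfold mass
    push_cast
    rw [hM]
    exact sum_congr rfl fun r _ => hw _
  rw [h2]
  simp only [hM]
  exact_mod_cast h1

end

end Vale.Agent.P315.H95
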