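import Vale.Agent.P315.H95.Var
import Vale.Agent.P315.H838.SysAlg

/-!
P315, milestone 2: the chain of the optimal mesh path over `clsPar` (row M2-GEO), in the form of
`H838.Chain`.

`pos i` = mesh position where the path enters row `i` (after the shift), `q i` = mesh position where
it leaves row `i`; the price of row `i` is `hid i (pos i) (q i)` plus the shift to `pos (i + 1)`.
-/

set_option autoImplicit false

namespace Vale.Agent.P315.H95

open Finset C H140

variable {m ℓ μ B w0 J S H Kc D1 n κr : ℕ} {S0 pos q : ℕ → ℕ} {vis hid : Leaf}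

theorem clsPar_M : (clsPar m ℓ μ B w0 J S H Kc D1).M = 2 ^ m := rfl
theorem clsPar_pen (j e a x : ℕ) :
    (clsPar m ℓ μ B w0 J S H Kc D1).pen j e a x = D1 * (ac x - ac a) := rfl
theorem clsPar_sh : (clsPar m ℓ μ B w0 J S H Kc D1).sh = 2 := rfl
theorem clsPar_kids (j a : ℕ) : (clsPar m ℓ μ B w0 J S H Kc D1).kids j a = kids m Kc a := rfl

/-- One row. -/
theorem best_row_le {P : Par} {f : Leaf} {i u p q v : ℕ} (h : Ed P p q) :
    best P f i 1 u v ≤ P.sh * Nat.dist u p + f i p q + P.sh * Nat.dist q v := by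
  have h1 := best_succ_le (P := P) (f := f) i 0 u v h
  rw [best_zero] at h1
  exact h1

theorem kv_succ (m w0 : ℕ) (S0 : ℕ → ℕ) (n κr x d : ℕ) :
    kv m w0 S0 n κr x (d + 1) = kv m w0 S0 n κr x d +
      Nat.dist (kc m w0 S0 n κr x (d + 1)) (kc m w0 S0 n κr x d) := sum_range_succ _ _

theorem kv_mono (m w0 : ℕ) (S0 : ℕ → ℕ) (n κr x : ℕ) {d d' : ℕ} (h : d ≤ d') :
    kv m w0 S0 n κr x d ≤ kv m w0 S0 n κr x d' := by
  induction d', h using Nat.le_induction with
  | base => exact le_rfl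
  | succ d' _ ih => rw [kv_succ]; omega

/-- The accumulated variation increases along lineages. -/
theorem ac_lab_mono {j j' : ℕ} (h : j ≤ j') (hj' : j' ≤ n) (x : ℕ) :
    ac (lab m w0 S0 pos n κr j' (x / (2 ^ m) ^ j')) ≤
      ac (lab m w0 S0 pos n κr j (x / (2 ^ m) ^ j)) := by
  rw [lab_eq hj', lab_eq (h.trans hj')]
  simp only [ac_enc]
  exact kv_mono _ _ _ _ _ _ (by omega)

/-- The chain of the path. -/
noncomputable def chain (h : PathOK m w0 Kc n κr S0 pos)
    (hEd : ∀ i < (2 ^ m) ^ n, Ed (clsPar m ℓ μ B w0 J S H (Kc + 3) D1) (pos i) (q i))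
    (hvis : ∀ i < (2 ^ m) ^ n, vis i (pos i) (q i) ≤ hid i (pos i) (q i) + S0 i) :
    H838.Chain (clsPar m ℓ μ B w0 J S H (Kc + 3) D1) vis hid n where
  pos := pos
  lab := lab m w0 S0 pos n κr
  Dp := fun i => (hid i (pos i) (q i) + 2 * Nat.dist (q i) (pos (i + 1)) : ℕ)
  w := fun i => S0 i
  hw := fun i => by exact_mod_cast lt_of_lt_of_le h.w0_pos (h.le_S0 i)
  kid := fun j hj i hi r hr => h.kid hj hr hi
  cell := fun i hi R hR => by
    have h1 := best_row_le (f := known (clsPar m ℓ μ B w0 J S H (Kc + 3) D1) vis hid R) (i := i)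
      (u := pos i) (v := pos (i + 1)) (hEd i hi)
    have hbox := h.inBox_lab (j := 0) (i := i) (r := i) (Nat.zero_le n)
      (by rw [Nat.sub_zero]; exact hi) (by rw [pow_zero, mul_one]) (by rw [pow_zero]; omega)
    have h2 : known (clsPar m ℓ μ B w0 J S H (Kc + 3) D1) vis hid R i (pos i) (q i) =
        hid i (pos i) (q i) := by
      unfold known
      rw [if_pos ⟨_, hR, hbox⟩]
    rw [h2, Nat.dist_self, Nat.mul_zero, Nat.zero_add] at h1
    exact_mod_cast h1
  visle := fun i hi => by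
    have h1 := best_row_le (f := vis) (i := i) (u := pos i) (v := pos (i + 1)) (hEd i hi)
    rw [Nat.dist_self, Nat.mul_zero, Nat.zero_add] at h1
    have h2 := hvis i hi
    have h3 : best (clsPar m ℓ μ B w0 J S H (Kc + 3) D1) vis i 1 (pos i) (pos (i + 1)) ≤
        (hid i (pos i) (q i) + 2 * Nat.dist (q i) (pos (i + 1))) + S0 i :=
      h1.trans (by show _ + 2 * _ ≤ _; omega)
    exact_mod_cast h3

section
variable (h : PathOK m w0 Kc n κr S0 pos)
  (hEd : ∀ i < (2 ^ m) ^ n, Ed (clsPar m ℓ μ B w0 J S H (Kc + 3) D1) (pos i) (q i))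
  (hvis : ∀ i < (2 ^ m) ^ n, vis i (pos i) (q i) ≤ hid i (pos i) (q i) + S0 i)

@[simp] theorem chain_pos : (chain h hEd hvis).pos = pos := rfl
@[simp] theorem chain_lab : (chain h hEd hvis).lab = lab m w0 S0 pos n κr := rfl
@[simp] theorem chain_w : (chain h hEd hvis).w = fun i => (S0 i : ℝ) := rfl
@[simp] theorem chain_Dp : (chain h hEd hvis).Dp =
    fun i => ((hid i (pos i) (q i) + 2 * Nat.dist (q i) (pos (i + 1)) : ℕ) : ℝ) := rfl

/-- The weight of a slab is its mass. -/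
theorem bs_w (j i : ℕ) : H808.bs (2 ^ m) (chain h hEd hvis).w j i = mass m S0 j i := by
  unfold H808.bs mass
  simp

theorem ac_lab_chain {e j i : ℕ} (hj : j + (e + 1) ≤ n) :
    ac (lab m w0 S0 pos n κr (j + (e + 1)) (i / (2 ^ m) ^ (e + 1))) ≤
      ac (lab m w0 S0 pos n κr (j + 1) (i / 2 ^ m)) ∧
    ac (lab m w0 S0 pos n κr (j + 1) (i / 2 ^ m)) ≤ ac (lab m w0 S0 pos n κr j i) := by
  have hM : 0 < (2 ^ m) ^ j := by positivity
  obtain ⟨x, e0⟩ : ∃ x, x / (2 ^ m) ^ j = i := ⟨i * (2 ^ m) ^ j, Nat.mul_div_cancel _ hM⟩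
  have e1 : x / (2 ^ m) ^ (j + 1) = i / 2 ^ m := by
    rw [pow_succ, ← Nat.div_div_eq_div_mul, e0]
  have e2 : x / (2 ^ m) ^ (j + (e + 1)) = i / (2 ^ m) ^ (e + 1) := by
    rw [pow_add, ← Nat.div_div_eq_div_mul, e0]
  have h1 := ac_lab_mono (m := m) (w0 := w0) (S0 := S0) (pos := pos) (κr := κr)
    (Nat.le_succ j) (le_trans (Nat.add_le_add_left (Nat.le_add_left 1 e) j) hj) x
  have h2 := ac_lab_mono (m := m) (w0 := w0) (S0 := S0) (pos := pos) (κr := κr)
    (Nat.add_le_add_left (Nat.le_add_left 1 e) j) hj x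
  rw [e1, e2] at h2
  rw [Nat.succ_eq_add_one, e0, e1] at h1
  exact ⟨h2, h1⟩

theorem pen_arith (D a b c : ℕ) (h1 : a ≤ b) (h2 : b ≤ c) :
    D * (c - a) = D * (b - a) + D * (c - b) := by
  rw [← Nat.mul_add]
  congr 1
  omega

theorem penAdd : (chain h hEd hvis).PenAdd := fun _ _ _ hj =>
  pen_arith D1 _ _ _ (ac_lab_chain hj).1 (ac_lab_chain hj).2

omit h in
theorem pen_self (j a : ℕ) : (clsPar m ℓ μ B w0 J S H (Kc + 3) D1).pen j 0 a a = 0 := by
  show D1 * (ac a - ac a) = 0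
  simp

/-- The static shift of a leaf: jitters plus `D1` times the variation of the class. -/
theorem S_leaf (mc : Mach) (ω : Rnd)
    (hE : ∃ p q, Ed (clsPar m ℓ μ B w0 J S H (Kc + 3) D1) p q)
    (hv : ∀ i p q, hid i p q ≤ vis i p q) {x : ℕ} (hx : x < (2 ^ m) ^ n) :
    ((chain h hEd hvis).along mc ω hE hv).S 0 x =
      Xi (clsPar m ℓ μ B w0 J S H (Kc + 3) D1) ω n n x + D1 * ac (lab m w0 S0 pos n κr 0 x) := by
  have h1 := (chain h hEd hvis).S_unit mc ω hE hv (pen_self) (penAdd h hEd hvis) n 0 x (by omega)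
  rw [h1]
  have h2 : ((chain h hEd hvis).along mc ω hE hv).S (0 + n) x = 0 := by
    unfold H808.Along.S
    rw [Nat.zero_add, Ico_self, sum_empty]
  rw [h2, Nat.zero_add, Nat.zero_add]
  have h3 : x / (clsPar m ℓ μ B w0 J S H (Kc + 3) D1).M ^ 0 = x := by simp
  have h4 : x / (clsPar m ℓ μ B w0 J S H (Kc + 3) D1).M ^ n = 0 := Nat.div_eq_of_lt hx
  rw [h3, h4]
  have h5 : (clsPar m ℓ μ B w0 J S H (Kc + 3) D1).pen n n ((chain h hEd hvis).lab n 0)
      ((chain h hEd hvis).lab 0 x) = D1 * ac (lab m w0 S0 pos n κr 0 x) := by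
    show D1 * (ac (lab m w0 S0 pos n κr 0 x) - ac (lab m w0 S0 pos n κr n 0)) = _
    rw [lab_root]
    simp
  rw [h5]

end

end Vale.Agent.P315.H95
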