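import Vale.Agent.P315.H95.Label
import Vale.Agent.P315.H869.Bad

/-!
P315, milestone 2: the labels of the optimal path.

`S0 i` = mass of the row `i` (cost of the path in the row plus the allowance), `pos i` = position of
the path at the row boundary `i` (moving frame). The classes follow the density of the mass with
hysteresis (`H869.cls`), the absolute widths never increase along a lineage, the boxes contain the
whole range of the path.
-/

set_option autoImplicit false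

namespace Vale.Agent.P315.H95

open Finset H869

/-! ### Total variation of the limited class chain -/

/-- `y` follows `x`, but increases by at most `c` per step; start `y0`. -/
def lim (c : ℕ) (x : ℕ → ℤ) (y0 : ℕ) : ℕ → ℕ
  | 0 => y0
  | d + 1 => min (x (d + 1)).toNat (lim c x y0 d + c)

theorem lim_succ_le (c : ℕ) (x : ℕ → ℤ) (y0 d : ℕ) : lim c x y0 (d + 1) ≤ lim c x y0 d + c :=
  min_le_right _ _

theorem lim_le (c : ℕ) (x : ℕ → ℤ) (y0 d : ℕ) : lim c x y0 (d + 1) ≤ (x (d + 1)).toNat :=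
  min_le_left _ _

theorem lim_congr (c : ℕ) {x x' : ℕ → ℤ} (y0 : ℕ) : ∀ d, (∀ e ≤ d, x e = x' e) →
    lim c x y0 d = lim c x' y0 d
  | 0, _ => rfl
  | d + 1, h => by
    simp only [lim, h (d + 1) le_rfl, lim_congr c y0 d fun e he => h e (by omega)]

/-- Accumulated variation of the chain. -/
def lvar (c : ℕ) (x : ℕ → ℤ) (y0 d : ℕ) : ℕ :=
  ∑ e ∈ range d, Nat.dist (lim c x y0 (e + 1)) (lim c x y0 e)

theorem natAbs_dist (a b : ℕ) : (Nat.dist a b : ℤ) = |(a : ℤ) - b| := by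
  unfold Nat.dist
  rcases le_total a b with h | h
  · rw [abs_of_nonpos (by omega)]; omega
  · rw [abs_of_nonneg (by omega)]; omega

theorem lvar_le_aux (c : ℕ) {x : ℕ → ℤ} (hx : ∀ e, 0 ≤ x e) (y0 d : ℕ) :
    (lvar c x y0 d : ℤ) + |x d - lim c x y0 d| ≤
      ∑ e ∈ range d, |x (e + 1) - x e| + |x 0 - y0| := by
  induction d with
  | zero => simp [lvar, lim]
  | succ d ih =>
    have h1 : lvar c x y0 (d + 1) = lvar c x y0 d +
        Nat.dist (lim c x y0 (d + 1)) (lim c x y0 d) := sum_range_succ _ _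
    rw [h1, sum_range_succ]
    push_cast
    rw [natAbs_dist]
    have hx1 := hx (d + 1)
    have hy : (lim c x y0 (d + 1) : ℤ) = min (x (d + 1)) ((lim c x y0 d : ℤ) + c) := by
      simp only [lim]
      push_cast
      rw [Int.toNat_of_nonneg hx1]
    set X := x (d + 1)
    set Y := (lim c x y0 d : ℤ)
    have hc : (0 : ℤ) ≤ c := Int.natCast_nonneg c
    have key : |min X (Y + c) - Y| + |X - min X (Y + c)| ≤ |X - x d| + |x d - Y| := by
      have htri : |X - Y| ≤ |X - x d| + |x d - Y| := abs_sub_le _ _ _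
      refine le_trans (le_of_eq ?_) htri
      rcases le_total X (Y + c) with h | h
      · rw [min_eq_left h, sub_self, abs_zero, add_zero]
      · rw [min_eq_right h, abs_of_nonneg (by omega), abs_of_nonneg (by omega),
          abs_of_nonneg (by omega)]
        ring
    rw [hy]
    linarith

theorem lvar_le (c : ℕ) {x : ℕ → ℤ} (hx : ∀ e, 0 ≤ x e) (y0 d : ℕ) :
    (lvar c x y0 d : ℤ) ≤ ∑ e ∈ range d, |x (e + 1) - x e| + |x 0 - y0| := by
  have := lvar_le_aux c hx y0 d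
  have h2 := abs_nonneg (x d - lim c x y0 d)
  linarith

/-! ### Masses and classes -/

/-- Mass of the slab `i` of level `j`. -/
def mass (m : ℕ) (S0 : ℕ → ℕ) (j i : ℕ) : ℕ :=
  ∑ r ∈ range ((2 ^ m) ^ j), S0 (i * (2 ^ m) ^ j + r)

theorem mass_zero (m : ℕ) (S0 : ℕ → ℕ) (i : ℕ) : mass m S0 0 i = S0 i := by simp [mass]

theorem sum_range_mul_add {α : Type*} [AddCommMonoid α] (a b : ℕ) (f : ℕ → α) :
    ∑ x ∈ range (a * b), f x = ∑ i ∈ range a, ∑ r ∈ range b, f (i * b + r) := by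
  induction a with
  | zero => simp
  | succ a ih => rw [Nat.succ_mul, sum_range_add, ih, sum_range_succ]

theorem mass_succ (m : ℕ) (S0 : ℕ → ℕ) (j i : ℕ) :
    mass m S0 (j + 1) i = ∑ r ∈ range (2 ^ m), mass m S0 j (i * 2 ^ m + r) := by
  unfold mass
  rw [pow_succ, mul_comm ((2 ^ m) ^ j) (2 ^ m), sum_range_mul_add]
  refine sum_congr rfl fun r _ => sum_congr rfl fun r' _ => ?_
  congr 1
  ring

theorem mass_le_succ (m : ℕ) (S0 : ℕ → ℕ) (j i : ℕ) :
    mass m S0 j i ≤ mass m S0 (j + 1) (i / 2 ^ m) := by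
  rw [mass_succ]
  have h := Nat.div_add_mod i (2 ^ m)
  have hr : i % 2 ^ m ∈ range (2 ^ m) := mem_range.2 (Nat.mod_lt _ (by positivity))
  have h2 := single_le_sum (f := fun r => mass m S0 j (i / 2 ^ m * 2 ^ m + r))
    (fun _ _ => Nat.zero_le _) hr
  have h3 : i / 2 ^ m * 2 ^ m + i % 2 ^ m = i := by rw [mul_comm]; exact h
  simpa only [h3] using h2

theorem mul_le_mass {m w0 : ℕ} {S0 : ℕ → ℕ} (h0 : ∀ i, w0 ≤ S0 i) (j i : ℕ) :
    w0 * (2 ^ m) ^ j ≤ mass m S0 j i := by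
  unfold mass
  calc w0 * (2 ^ m) ^ j = ∑ _r ∈ range ((2 ^ m) ^ j), w0 := by
        rw [sum_const, card_range, smul_eq_mul, mul_comm]
    _ ≤ _ := sum_le_sum fun r _ => h0 _

/-- Base 2 logarithm of the density of the slab of level `j` above the row `x`. -/
noncomputable def ld (m w0 : ℕ) (S0 : ℕ → ℕ) (x j : ℕ) : ℝ :=
  Real.log ((mass m S0 j (x / (2 ^ m) ^ j) : ℝ) / (w0 * (2 ^ m) ^ j : ℕ)) / Real.log 2

theorem log2_pos : 0 < Real.log 2 := Real.log_pos (by norm_num)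

theorem ld_nonneg {m w0 : ℕ} (hw : 0 < w0) {S0 : ℕ → ℕ} (h0 : ∀ i, w0 ≤ S0 i) (x j : ℕ) :
    0 ≤ ld m w0 S0 x j := by
  unfold ld
  refine div_nonneg (Real.log_nonneg ?_) log2_pos.le
  have h1 : 0 < w0 * (2 ^ m) ^ j := by positivity
  rw [one_le_div (by exact_mod_cast h1)]
  exact_mod_cast mul_le_mass h0 j _

theorem ld_le_iff {m w0 : ℕ} (hw : 0 < w0) {S0 : ℕ → ℕ} (h0 : ∀ i, w0 ≤ S0 i) (x j κ : ℕ) :
    ld m w0 S0 x j ≤ κ ↔ mass m S0 j (x / (2 ^ m) ^ j) ≤ wd m w0 j κ := by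
  have h1 : 0 < w0 * (2 ^ m) ^ j := by positivity
  have h1' : (0 : ℝ) < (w0 * (2 ^ m) ^ j : ℕ) := by exact_mod_cast h1
  have h2 : (0 : ℝ) < mass m S0 j (x / (2 ^ m) ^ j) := by
    exact_mod_cast lt_of_lt_of_le h1 (mul_le_mass h0 j _)
  unfold ld
  rw [div_le_iff₀ log2_pos, ← Real.log_pow, Real.log_le_log_iff (by positivity) (by positivity),
    div_le_iff₀ h1']
  unfold wd
  constructor
  · intro h
    exact_mod_cast h
  · intro h
    exact_mod_cast h

theorem le_ld {m w0 : ℕ} (hw : 0 < w0) {S0 : ℕ → ℕ} (h0 : ∀ i, w0 ≤ S0 i) {x j κ : ℕ}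
    (h : (κ : ℝ) - 3 ≤ ld m w0 S0 x j) :
    wd m w0 j κ ≤ 8 * mass m S0 j (x / (2 ^ m) ^ j) := by
  have h1 : 0 < w0 * (2 ^ m) ^ j := by positivity
  have h1' : (0 : ℝ) < (w0 * (2 ^ m) ^ j : ℕ) := by exact_mod_cast h1
  have h2 : (0 : ℝ) < mass m S0 j (x / (2 ^ m) ^ j) := by
    exact_mod_cast lt_of_lt_of_le h1 (mul_le_mass h0 j _)
  unfold ld at h
  rw [le_div_iff₀ log2_pos, sub_mul, sub_le_iff_le_add] at h
  have h3 : (κ : ℝ) * Real.log 2 ≤ Real.log (8 * ((mass m S0 j (x / (2 ^ m) ^ j) : ℝ) /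
      (w0 * (2 ^ m) ^ j : ℕ))) := by
    rw [Real.log_mul (by norm_num) (by positivity)]
    have h8 : Real.log 8 = 3 * Real.log 2 := by
      rw [show (8 : ℝ) = 2 ^ 3 by norm_num, Real.log_pow]; norm_num
    linarith
  rw [← Real.log_pow, Real.log_le_log_iff (by positivity) (by positivity), mul_div_assoc',
    le_div_iff₀ h1'] at h3
  unfold wd
  exact_mod_cast h3

/-- Class with hysteresis of the slab of level `n - d` above the row `x`. -/
noncomputable def hc (m w0 : ℕ) (S0 : ℕ → ℕ) (n x d : ℕ) : ℤ := cls (ld m w0 S0 x) n d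

theorem ld_congr {m w0 : ℕ} {S0 : ℕ → ℕ} {x y j : ℕ} (h : x / (2 ^ m) ^ j = y / (2 ^ m) ^ j) :
    ld m w0 S0 x j = ld m w0 S0 y j := by
  unfold ld; rw [h]

theorem div_pow_congr {m x y j j' : ℕ} (hj : j ≤ j') (h : x / (2 ^ m) ^ j = y / (2 ^ m) ^ j) :
    x / (2 ^ m) ^ j' = y / (2 ^ m) ^ j' := by
  obtain ⟨e, rfl⟩ := Nat.exists_eq_add_of_le hj
  rw [pow_add, ← Nat.div_div_eq_div_mul, ← Nat.div_div_eq_div_mul, h]

theorem hc_congr {m w0 : ℕ} {S0 : ℕ → ℕ} {n x y d : ℕ}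
    (h : x / (2 ^ m) ^ (n - d) = y / (2 ^ m) ^ (n - d)) :
    hc m w0 S0 n x d = hc m w0 S0 n y d := by
  unfold hc
  exact cls_congr d fun i hi => ld_congr (div_pow_congr hi h)

theorem hc_nonneg {m w0 : ℕ} (hw : 0 < w0) {S0 : ℕ → ℕ} (h0 : ∀ i, w0 ≤ S0 i) (n x d : ℕ) :
    0 ≤ hc m w0 S0 n x d := by
  have h1 := (cls_mem (ld m w0 S0 x) n d).2
  have h2 := ld_nonneg (m := m) hw h0 x (n - d)
  unfold hc
  exact_mod_cast h2.trans h1

/-! ### The chain of classes -/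

/-- Class of the node at depth `d` (level `n - d`) above the row `x`; `κr` = class of the root. -/
noncomputable def kc (m w0 : ℕ) (S0 : ℕ → ℕ) (n κr x d : ℕ) : ℕ := lim m (hc m w0 S0 n x) κr d

/-- Accumulated variation of the class at depth `d`. -/
noncomputable def kv (m w0 : ℕ) (S0 : ℕ → ℕ) (n κr x d : ℕ) : ℕ := lvar m (hc m w0 S0 n x) κr d

theorem kc_congr {m w0 : ℕ} {S0 : ℕ → ℕ} {n κr x y d : ℕ}
    (h : x / (2 ^ m) ^ (n - d) = y / (2 ^ m) ^ (n - d)) {e : ℕ} (he : e ≤ d) :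
    kc m w0 S0 n κr x e = kc m w0 S0 n κr y e := by
  refine lim_congr m κr e fun e' he' => hc_congr (div_pow_congr (by omega) h)

theorem kv_congr {m w0 : ℕ} {S0 : ℕ → ℕ} {n κr x y d : ℕ}
    (h : x / (2 ^ m) ^ (n - d) = y / (2 ^ m) ^ (n - d)) :
    kv m w0 S0 n κr x d = kv m w0 S0 n κr y d := by
  unfold kv lvar
  refine sum_congr rfl fun e he => ?_
  have he' := mem_range.1 he
  have h1 := kc_congr (m := m) (w0 := w0) (S0 := S0) (κr := κr) h (e := e + 1) (by omega)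
  have h2 := kc_congr (m := m) (w0 := w0) (S0 := S0) (κr := κr) h (e := e) (by omega)
  unfold kc at h1 h2
  rw [h1, h2]

/-- The width of the class bounds the mass. -/
theorem mass_le_wd {m w0 : ℕ} (hw : 0 < w0) {S0 : ℕ → ℕ} (h0 : ∀ i, w0 ≤ S0 i) {n κr : ℕ} (x : ℕ)
    (hr : mass m S0 n (x / (2 ^ m) ^ n) ≤ wd m w0 n κr) : ∀ d, d ≤ n →
    mass m S0 (n - d) (x / (2 ^ m) ^ (n - d)) ≤ wd m w0 (n - d) (kc m w0 S0 n κr x d)
  | 0, _ => hr
  | d + 1, hd => by
    have ih := mass_le_wd hw h0 x hr d (by omega)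
    rcases min_choice (hc m w0 S0 n x (d + 1)).toNat (kc m w0 S0 n κr x d + m) with h | h
    · have h1 : kc m w0 S0 n κr x (d + 1) = (hc m w0 S0 n x (d + 1)).toNat := h
      rw [h1, ← ld_le_iff hw h0]
      have h2 := (cls_mem (ld m w0 S0 x) n (d + 1)).2
      have h3 : (((hc m w0 S0 n x (d + 1)).toNat : ℤ) : ℝ) = (hc m w0 S0 n x (d + 1) : ℝ) := by
        rw [Int.toNat_of_nonneg (hc_nonneg hw h0 n x (d + 1))]
      have h4 : ((hc m w0 S0 n x (d + 1)).toNat : ℝ) = (hc m w0 S0 n x (d + 1) : ℝ) := by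
        exact_mod_cast h3
      rw [h4]
      exact h2
    · have h1 : kc m w0 S0 n κr x (d + 1) = kc m w0 S0 n κr x d + m := h
      rw [h1]
      have h5 : n - d = n - (d + 1) + 1 := by omega
      rw [h5] at ih
      have h6 := mass_le_succ m S0 (n - (d + 1)) (x / (2 ^ m) ^ (n - (d + 1)))
      rw [Nat.div_div_eq_div_mul, ← pow_succ] at h6
      refine (h6.trans ih).trans (le_of_eq ?_)
      rw [wd_succ (m := m) (w0 := w0) (j := n - (d + 1)) (κ := kc m w0 S0 n κr x d)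
        (κ' := kc m w0 S0 n κr x d + m) le_rfl]
      simp

theorem wd_mono {m w0 j κ κ' : ℕ} (h : κ ≤ κ') : wd m w0 j κ ≤ wd m w0 j κ' :=
  Nat.mul_le_mul_right _ (Nat.pow_le_pow_right (by norm_num) h)

/-- Below the root the width is at most `8` times the mass. -/
theorem wd_le_mass {m w0 : ℕ} (hw : 0 < w0) {S0 : ℕ → ℕ} (h0 : ∀ i, w0 ≤ S0 i) (n κr x d : ℕ) :
    wd m w0 (n - (d + 1)) (kc m w0 S0 n κr x (d + 1)) ≤
      8 * mass m S0 (n - (d + 1)) (x / (2 ^ m) ^ (n - (d + 1))) := by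
  refine (wd_mono (lim_le m (hc m w0 S0 n x) κr d)).trans (le_ld hw h0 ?_)
  have h1 := (cls_mem (ld m w0 S0 x) n (d + 1)).1
  have h3 : (((hc m w0 S0 n x (d + 1)).toNat : ℤ) : ℝ) = (hc m w0 S0 n x (d + 1) : ℝ) := by
    rw [Int.toNat_of_nonneg (hc_nonneg hw h0 n x (d + 1))]
  have h4 : ((hc m w0 S0 n x (d + 1)).toNat : ℝ) = (hc m w0 S0 n x (d + 1) : ℝ) := by
    exact_mod_cast h3
  rw [h4]
  exact h1

/-- The classes are bounded if the densities are. -/
theorem kc_le {m w0 : ℕ} (hw : 0 < w0) {S0 : ℕ → ℕ} (h0 : ∀ i, w0 ≤ S0 i) {n κr Kc x : ℕ}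
    (hS : ∀ i, S0 i ≤ 2 ^ Kc * w0) (hκ : κr ≤ Kc + 3) (d : ℕ) :
    kc m w0 S0 n κr x d ≤ Kc + 3 := by
  cases d with
  | zero => exact hκ
  | succ d =>
    have h1 := wd_le_mass (m := m) hw h0 n κr x d
    have h2 : mass m S0 (n - (d + 1)) (x / (2 ^ m) ^ (n - (d + 1))) ≤
        wd m w0 (n - (d + 1)) Kc := by
      unfold mass wd
      calc _ ≤ ∑ _r ∈ range ((2 ^ m) ^ (n - (d + 1))), 2 ^ Kc * w0 := sum_le_sum fun r _ => hS _
        _ = _ := by rw [sum_const, card_range, smul_eq_mul]; ring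
    have h3 : 8 * wd m w0 (n - (d + 1)) Kc = wd m w0 (n - (d + 1)) (Kc + 3) := by
      unfold wd; rw [pow_add]; ring
    have h4 : wd m w0 (n - (d + 1)) (kc m w0 S0 n κr x (d + 1)) ≤
        wd m w0 (n - (d + 1)) (Kc + 3) := by
      rw [← h3]; exact h1.trans (Nat.mul_le_mul_left _ h2)
    unfold wd at h4
    have h5 : 0 < w0 * (2 ^ m) ^ (n - (d + 1)) := by positivity
    exact (Nat.pow_le_pow_iff_right (by norm_num)).1 (Nat.le_of_mul_le_mul_right h4 h5)

/-- The accumulated variation is controlled by the variation of `H869.cls`. -/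
theorem kv_le {m w0 : ℕ} (hw : 0 < w0) {S0 : ℕ → ℕ} (h0 : ∀ i, w0 ≤ S0 i) (n κr x d : ℕ) :
    (kv m w0 S0 n κr x d : ℤ) ≤
      ∑ e ∈ range d, |hc m w0 S0 n x (e + 1) - hc m w0 S0 n x e| + |hc m w0 S0 n x 0 - κr| :=
  lvar_le m (hc_nonneg hw h0 n x) κr d

end Vale.Agent.P315.H95
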