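import Vale.Agent.P315.H846.Stmt2
import Vale.Agent.P315.H801.Mach
import Vale.Agent.P315.H869.Units

/-!
P315, milestone 2: the positions of the path of an instance, rounded down to the net of a machine.

Top = slab `i` of level `j + h` with label `a = C.lab (j + h) i`, `K = (2 ^ m) ^ h` unit rows,
`Z = wd m w0 j (cl a)` = unit of length, `lo = bx a * (K * Z)`, net spacing `η = Z / g` (fine) and
`K * η` (coarse).
-/

set_option autoImplicit false

namespace Vale.Agent.P315.H95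

open Vale.Agent.P315 C Finset

/-! ### The net -/

section net

variable {μ B lo Z g η K x z : ℕ}

/-- Position of a net point. -/
theorem posN_net (hg : 0 < g) (hZ : Z = g * η) (_hμ : 0 < μ) (hη : μ ∣ η) (hlo : μ ∣ lo)
    (hB : lo + x * η ≤ B) : H801.posN μ B lo Z g x = lo + x * η := by
  unfold H801.posN
  have h1 : x * Z / g = x * η := by
    rw [hZ, show x * (g * η) = g * (x * η) by ring, Nat.mul_div_cancel_left _ hg]
  have h2 : μ ∣ lo + x * η := Nat.dvd_add hlo (hη.mul_left x)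
  rw [h1, Nat.min_eq_left (Nat.div_le_div_right hB), Nat.mul_div_cancel' h2]

/-- Number of the net point below `z`. -/
def nf (lo η z : ℕ) : ℕ := (z - lo) / η

theorem nf_le (h : lo ≤ z) : lo + nf lo η z * η ≤ z := by
  unfold nf
  have := Nat.div_mul_le_self (z - lo) η
  omega

theorem lt_nf (hη : 0 < η) (h : lo ≤ z) : z < lo + nf lo η z * η + η := by
  unfold nf
  have := Nat.lt_div_mul_add (a := z - lo) hη
  omega

theorem nf_le_top (hη : 0 < η) (hZ : Z = g * η) (h : z ≤ lo + 2 * K * Z) :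
    nf lo η z ≤ 2 * K * g := by
  unfold nf
  have h1 : z - lo ≤ 2 * K * g * η := by
    have : 2 * K * Z = 2 * K * g * η := by rw [hZ]; ring
    omega
  calc (z - lo) / η ≤ 2 * K * g * η / η := Nat.div_le_div_right h1
    _ = 2 * K * g := Nat.mul_div_cancel _ hη

/-- The fine net. -/
theorem fine (hg : 0 < g) (hZ : Z = g * η) (hη0 : 0 < η) (hμ : 0 < μ) (hη : μ ∣ η) (hlo : μ ∣ lo)
    (h1 : lo ≤ z) (hB : z ≤ B) :
    H801.posN μ B lo Z g (nf lo η z) ≤ z ∧ z < H801.posN μ B lo Z g (nf lo η z) + η := by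
  rw [posN_net hg hZ hμ hη hlo ((nf_le h1).trans hB)]
  exact ⟨nf_le h1, lt_nf hη0 h1⟩

theorem fine_dist (hg : 0 < g) (hZ : Z = g * η) (hη0 : 0 < η) (hμ : 0 < μ) (hη : μ ∣ η)
    (hlo : μ ∣ lo) (h1 : lo ≤ z) (hB : z ≤ B) :
    Nat.dist (H801.posN μ B lo Z g (nf lo η z)) z ≤ η ∧
      Nat.dist z (H801.posN μ B lo Z g (nf lo η z)) ≤ η := by
  have h := fine hg hZ hη0 hμ hη hlo h1 hB
  unfold Nat.dist
  omega

/-- The coarse net: node number `a0 * K`. -/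
theorem coarse (hg : 0 < g) (hZ : Z = g * η) (hη0 : 0 < η) (hK : 0 < K) (hμ : 0 < μ)
    (hη : μ ∣ η) (hlo : μ ∣ lo) (h1 : lo ≤ z) (hB : z ≤ B) :
    H801.posN μ B lo Z g (nf lo (K * η) z * K) ≤ z ∧
      z < H801.posN μ B lo Z g (nf lo (K * η) z * K) + K * η := by
  have h2 := nf_le (η := K * η) h1
  have h3 := lt_nf (η := K * η) (by positivity) h1
  have e : nf lo (K * η) z * K * η = nf lo (K * η) z * (K * η) := by ring
  rw [posN_net hg hZ hμ hη hlo (by rw [e]; exact h2.trans hB), e]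
  exact ⟨h2, h3⟩

theorem coarse_dist (hg : 0 < g) (hZ : Z = g * η) (hη0 : 0 < η) (hK : 0 < K) (hμ : 0 < μ)
    (hη : μ ∣ η) (hlo : μ ∣ lo) (h1 : lo ≤ z) (hB : z ≤ B) :
    Nat.dist (H801.posN μ B lo Z g (nf lo (K * η) z * K)) z ≤ K * η ∧
      Nat.dist z (H801.posN μ B lo Z g (nf lo (K * η) z * K)) ≤ K * η := by
  have h := coarse hg hZ hη0 hK hμ hη hlo h1 hB
  unfold Nat.dist
  omega

theorem coarse_le (hη0 : 0 < η) (hK : 0 < K) (hZ : Z = g * η) (h : z ≤ lo + 2 * K * Z) :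
    nf lo (K * η) z ≤ 2 * g := by
  unfold nf
  have h1 : z - lo ≤ 2 * g * (K * η) := by
    have : 2 * K * Z = 2 * g * (K * η) := by rw [hZ]; ring
    omega
  calc (z - lo) / (K * η) ≤ 2 * g * (K * η) / (K * η) := Nat.div_le_div_right h1
    _ = 2 * g := Nat.mul_div_cancel _ (by positivity)

/-- The two shift rows: from the coarse net point to the fine net point of the same position. -/
theorem shift_dist (hg : 0 < g) (hZ : Z = g * η) (hη0 : 0 < η) (hK : 0 < K) (hμ : 0 < μ)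
    (hη : μ ∣ η) (hlo : μ ∣ lo) (h1 : lo ≤ z) (hB : z ≤ B) :
    Nat.dist (H801.posN μ B lo Z g (nf lo (K * η) z * K)) (H801.posN μ B lo Z g (nf lo η z)) ≤
        K * η ∧
      Nat.dist (H801.posN μ B lo Z g (nf lo η z)) (H801.posN μ B lo Z g (nf lo (K * η) z * K)) ≤
        K * η := by
  have h2 := coarse hg hZ hη0 hK hμ hη hlo h1 hB
  have h3 := fine hg hZ hη0 hμ hη hlo h1 hB
  have h4 : η ≤ K * η := Nat.le_mul_of_pos_left _ hK
  unfold Nat.dist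
  omega

end net

/-! ### The instance -/

section inst

variable {P : Par} {m w0 Kc κr n : ℕ} {vis hid : Leaf} {S0 : ℕ → ℕ} {C : H808.Chain P vis hid n}

/-- The row boundary `u` of a top is inside the slab. -/
theorem row_mem (m j h i u : ℕ) (hu : u ≤ (2 ^ m) ^ h) :
    i * (2 ^ m) ^ (j + h) ≤ (i * (2 ^ m) ^ h + u) * (2 ^ m) ^ j ∧
      (i * (2 ^ m) ^ h + u) * (2 ^ m) ^ j ≤ (i + 1) * (2 ^ m) ^ (j + h) := by
  have e1 : i * (2 ^ m) ^ (j + h) = i * (2 ^ m) ^ h * (2 ^ m) ^ j := by rw [pow_add]; ring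
  have e2 : (i + 1) * (2 ^ m) ^ (j + h) = (i * (2 ^ m) ^ h + (2 ^ m) ^ h) * (2 ^ m) ^ j := by
    rw [pow_add]; ring
  rw [e1, e2]
  exact ⟨Nat.mul_le_mul_right _ (Nat.le_add_right _ _), Nat.mul_le_mul_right _ (by omega)⟩

/-- **The path is in the box of the top.** -/
theorem inst_box (hI : H846.Inst2 P m w0 Kc κr vis hid n S0 C) {j h i u : ℕ} (hj : j + h ≤ n)
    (hi : i < (2 ^ m) ^ (n - (j + h))) (hu : u ≤ (2 ^ m) ^ h) :
    bx (C.lab (j + h) i) * ((2 ^ m) ^ h * wd m w0 j (cl (C.lab (j + h) i))) ≤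
        C.pos ((i * (2 ^ m) ^ h + u) * (2 ^ m) ^ j) ∧
      C.pos ((i * (2 ^ m) ^ h + u) * (2 ^ m) ^ j) ≤
        bx (C.lab (j + h) i) * ((2 ^ m) ^ h * wd m w0 j (cl (C.lab (j + h) i))) +
          2 * (2 ^ m) ^ h * wd m w0 j (cl (C.lab (j + h) i)) := by
  obtain ⟨h1, h2⟩ := row_mem m j h i u hu
  have h3 := hI.path.inBox_lab (j := j + h) (i := i) hj hi h1 h2
  rw [← hI.lab (j + h) i] at h3
  obtain ⟨h4, h5⟩ := h3
  rw [H869.Units.wd_add] at h4 h5
  refine ⟨h4, h5.trans (le_of_eq (by ring))⟩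

/-- The positions are at most `B`. -/
theorem inst_le_B (hI : H846.Inst2 P m w0 Kc κr vis hid n S0 C) (hM : P.M = 2 ^ m)
    {j h i u : ℕ} (hj : j + h ≤ n) (hi : i < (2 ^ m) ^ (n - (j + h))) (hu : u ≤ (2 ^ m) ^ h) :
    C.pos ((i * (2 ^ m) ^ h + u) * (2 ^ m) ^ j) ≤ P.B := by
  refine hI.pos_le _ ?_
  rw [hM]
  refine (row_mem m j h i u hu).2.trans ?_
  calc (i + 1) * (2 ^ m) ^ (j + h) ≤ (2 ^ m) ^ (n - (j + h)) * (2 ^ m) ^ (j + h) :=
        Nat.mul_le_mul_right _ hi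
    _ = (2 ^ m) ^ n := by rw [← pow_add, Nat.sub_add_cancel hj]

/-- **Rounding of the positions of an instance to the nets of a top.** -/
theorem inst_net (hI : H846.Inst2 P m w0 Kc κr vis hid n S0 C) (hM : P.M = 2 ^ m)
    (hμ : 0 < P.μ) {j h i u g : ℕ} (hg : 0 < g) (hj : j + h ≤ n)
    (hi : i < (2 ^ m) ^ (n - (j + h))) (hu : u ≤ (2 ^ m) ^ h)
    (hdvd : P.μ * g ∣ wd m w0 j (cl (C.lab (j + h) i))) :
    ∃ η, wd m w0 j (cl (C.lab (j + h) i)) = g * η ∧ 0 < η ∧ P.μ ∣ η ∧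
      P.μ ∣ bx (C.lab (j + h) i) * ((2 ^ m) ^ h * wd m w0 j (cl (C.lab (j + h) i))) ∧
      ∀ z lo Z, z = C.pos ((i * (2 ^ m) ^ h + u) * (2 ^ m) ^ j) →
        Z = wd m w0 j (cl (C.lab (j + h) i)) → lo = bx (C.lab (j + h) i) * ((2 ^ m) ^ h * Z) →
        nf lo η z ≤ 2 * (2 ^ m) ^ h * g ∧ nf lo ((2 ^ m) ^ h * η) z ≤ 2 * g ∧
        Nat.dist (H801.posN P.μ P.B lo Z g (nf lo η z)) z ≤ η ∧
        Nat.dist (H801.posN P.μ P.B lo Z g (nf lo ((2 ^ m) ^ h * η) z * (2 ^ m) ^ h)) z ≤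
          (2 ^ m) ^ h * η ∧
        Nat.dist (H801.posN P.μ P.B lo Z g (nf lo ((2 ^ m) ^ h * η) z * (2 ^ m) ^ h))
          (H801.posN P.μ P.B lo Z g (nf lo η z)) ≤ (2 ^ m) ^ h * η := by
  obtain ⟨c, hc⟩ := hdvd
  have hZpos := wd_pos (m := m) hI.path.w0_pos j (cl (C.lab (j + h) i))
  have hZ : wd m w0 j (cl (C.lab (j + h) i)) = g * (P.μ * c) := by rw [hc]; ring
  have hη0 : 0 < P.μ * c := by
    rcases Nat.eq_zero_or_pos (P.μ * c) with h0 | h0
    · rw [hZ, h0, Nat.mul_zero] at hZpos; exact absurd hZpos (lt_irrefl _)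
    · exact h0
  have hlo : P.μ ∣ bx (C.lab (j + h) i) * ((2 ^ m) ^ h * wd m w0 j (cl (C.lab (j + h) i))) := by
    rw [hZ]
    exact Dvd.intro (bx (C.lab (j + h) i) * ((2 ^ m) ^ h * (g * c))) (by ring)
  refine ⟨P.μ * c, hZ, hη0, Dvd.intro _ rfl, hlo, ?_⟩
  intro z lo Z hz hZe hloe
  have hbox := inst_box hI hj hi hu
  have hB := inst_le_B hI hM hj hi hu
  rw [← hz] at hbox hB
  rw [← hZe] at hbox hlo hZ
  rw [← hloe] at hbox hlo
  have hK : 0 < (2 ^ m) ^ h := by positivity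
  have hμη : P.μ ∣ P.μ * c := Dvd.intro _ rfl
  exact ⟨nf_le_top hη0 hZ hbox.2, coarse_le hη0 hK hZ hbox.2,
    (fine_dist hg hZ hη0 hμ hμη hlo hbox.1 hB).1,
    (coarse_dist hg hZ hη0 hK hμ hμη hlo hbox.1 hB).1,
    (shift_dist hg hZ hη0 hK hμ hμη hlo hbox.1 hB).1⟩

/-- Divisibility of the widths, from the divisibility of `w0`. -/
theorem dvd_wd {μ g e : ℕ} (h : 2 ^ e * μ ∣ w0) (hg : g ∣ 2 ^ e) (m j c : ℕ) :
    μ * g ∣ wd m w0 j c := by
  unfold wd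
  have h1 : μ * g ∣ w0 := by
    refine (Nat.mul_dvd_mul_left μ hg).trans ?_
    rwa [mul_comm]
  exact (h1.mul_right _).mul_left _

end inst

end Vale.Agent.P315.H95
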