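import Vale.Agent.P315.H95.Boxes

/-!
P315, milestone 2: `PathOK` with the largest class at the root, from data on the rows `i < M ^ n`.
-/

set_option autoImplicit false

namespace Vale.Agent.P315.H95

open Finset

variable {m w0 Kc n K : ℕ} {S0 pos : ℕ → ℕ}

/-- Positions, constant after `K`. -/
def extP (K : ℕ) (pos : ℕ → ℕ) (i : ℕ) : ℕ := pos (min i K)

/-- Masses, `w0` from `K` on. -/
def extS (K w0 : ℕ) (S0 : ℕ → ℕ) (i : ℕ) : ℕ := if i < K then S0 i else w0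

theorem extP_of_le {i : ℕ} (h : i ≤ K) : extP K pos i = pos i := by
  unfold extP; rw [min_eq_left h]

theorem extP_of_ge {i : ℕ} (h : K ≤ i) : extP K pos i = pos K := by
  unfold extP; rw [min_eq_right h]

theorem extS_of_lt {i : ℕ} (h : i < K) : extS K w0 S0 i = S0 i := if_pos h

theorem extS_of_ge {i : ℕ} (h : K ≤ i) : extS K w0 S0 i = w0 := if_neg (by omega)

theorem le_extS (h : ∀ i < K, w0 ≤ S0 i) (i : ℕ) : w0 ≤ extS K w0 S0 i := by
  unfold extS
  split_ifs with h1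
  · exact h i h1
  · exact le_rfl

theorem extS_le (h : ∀ i < K, S0 i ≤ 2 ^ Kc * w0) (i : ℕ) : extS K w0 S0 i ≤ 2 ^ Kc * w0 := by
  unfold extS
  split_ifs with h1
  · exact h i h1
  · exact Nat.le_mul_of_pos_left _ (by positivity)

theorem sum_extS (f : ℕ → ℕ → ℝ) : ∑ i ∈ range K, f i (extS K w0 S0 i) =
    ∑ i ∈ range K, f i (S0 i) :=
  sum_congr rfl fun _ hi => by rw [extS_of_lt (mem_range.1 hi)]

theorem dist_extP (h : ∀ i < K, Nat.dist (pos i) (pos (i + 1)) ≤ S0 i) (i : ℕ) :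
    Nat.dist (extP K pos i) (extP K pos (i + 1)) ≤ extS K w0 S0 i := by
  rcases lt_or_ge i K with h1 | h1
  · rw [extP_of_le h1.le, extP_of_le (show i + 1 ≤ K from h1), extS_of_lt h1]
    exact h i h1
  · rw [extP_of_ge h1, extP_of_ge (by omega), Nat.dist_self]
    exact Nat.zero_le _

/-- The mass of a slab is at most the width of the largest class. -/
theorem mass_le_top (h : ∀ i, S0 i ≤ 2 ^ Kc * w0) (j i : ℕ) : mass m S0 j i ≤ wd m w0 j Kc := by
  unfold mass wd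
  calc _ ≤ ∑ _r ∈ range ((2 ^ m) ^ j), 2 ^ Kc * w0 := sum_le_sum fun r _ => h _
    _ = _ := by rw [sum_const, card_range, smul_eq_mul]; ring

/-- `PathOK` with root class `κr`, from data on the rows of the instance. -/
theorem PathOK.ofExt {κr : ℕ} (hw : 0 < w0) (h1 : ∀ i < (2 ^ m) ^ n, w0 ≤ S0 i)
    (h2 : ∀ i < (2 ^ m) ^ n, S0 i ≤ 2 ^ Kc * w0)
    (h3 : ∀ i < (2 ^ m) ^ n, Nat.dist (pos i) (pos (i + 1)) ≤ S0 i)
    (h4 : mass m S0 n 0 ≤ wd m w0 n κr) (h5 : κr ≤ Kc + 3)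
    (h6 : ∀ i ≤ (2 ^ m) ^ n, pos i ≤ 2 * wd m w0 n κr) :
    PathOK m w0 Kc n κr (extS ((2 ^ m) ^ n) w0 S0) (extP ((2 ^ m) ^ n) pos) where
  w0_pos := hw
  le_S0 := le_extS h1
  S0_le := extS_le h2
  dist_le := dist_extP h3
  root_le := by
    refine le_trans (le_of_eq ?_) h4
    unfold mass
    refine sum_congr rfl fun r hr => ?_
    rw [Nat.zero_mul, Nat.zero_add, extS_of_lt (mem_range.1 hr)]
  root_cl := h5
  root_box := fun r hr => by
    rw [extP_of_le hr]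
    exact h6 r hr

/-- The same with the largest class at the root: the total mass is automatically small. -/
theorem PathOK.ofKc (hw : 0 < w0) (h1 : ∀ i < (2 ^ m) ^ n, w0 ≤ S0 i)
    (h2 : ∀ i < (2 ^ m) ^ n, S0 i ≤ 2 ^ Kc * w0)
    (h3 : ∀ i < (2 ^ m) ^ n, Nat.dist (pos i) (pos (i + 1)) ≤ S0 i)
    (h6 : ∀ i ≤ (2 ^ m) ^ n, pos i ≤ 2 * wd m w0 n Kc) :
    PathOK m w0 Kc n Kc (extS ((2 ^ m) ^ n) w0 S0) (extP ((2 ^ m) ^ n) pos) := by
  refine PathOK.ofExt hw h1 h2 h3 ?_ (by omega) h6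
  have h := mass_le_top (m := m) (extS_le (w0 := w0) (K := (2 ^ m) ^ n) h2) n 0
  refine le_trans (le_of_eq ?_) h
  unfold mass
  refine sum_congr rfl fun r hr => ?_
  rw [Nat.zero_mul, Nat.zero_add, extS_of_lt (mem_range.1 hr)]

/-- Total mass of the instance. -/
theorem mass_root (S0 : ℕ → ℕ) : mass m S0 n 0 = ∑ i ∈ range ((2 ^ m) ^ n), S0 i := by
  unfold mass
  simp

end Vale.Agent.P315.H95
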