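import Vale.Agent.P315.H54.PStarM

/-!
P315, milestone 2: tame optimal routes.

A shift costs `2` per position, exactly as a row of deletions and insertions. So every route in the
cones can be replaced, without increasing its cost, by one with all shifts at most `2 l`: a large
shift is spread over the rows before it, along the steepest line that ends in its goal.
-/

set_option autoImplicit false

namespace Vale.Agent.P315.H95

open Vale.Agent.P315 C Finset H54

variable {μ B l c0 : ℕ}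

/-- One row of a route in the cones. -/
structure Row (μ B l c0 i p q : ℕ) : Prop where
  dp : μ ∣ p
  dq : μ ∣ q
  pB : p ≤ B
  qB : q ≤ B
  a1 : p ≤ q + l
  a2 : q ≤ p + l
  cp : InCone l c0 i p
  cq : InCone l c0 (i + 1) q

/-- A route in the cones. -/
def GoodR (μ B l c0 m : ℕ) (r : ℕ → ℕ × ℕ) : Prop := ∀ i < m, Row μ B l c0 i (r i).1 (r i).2

/-- All shifts are at most `2 l`. -/
def Tame (l c0 m : ℕ) (r : ℕ → ℕ × ℕ) : Prop :=
  ∀ i < m, Nat.dist (prevPos c0 r i) (r i).1 ≤ 2 * l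

/-- Cost of the first `m` rows. -/
def pc (f : ℕ → ℕ → ℕ → ℕ) (c0 : ℕ) (r : ℕ → ℕ × ℕ) (m : ℕ) : ℕ :=
  ∑ i ∈ range m, (2 * Nat.dist (prevPos c0 r i) (r i).1 + f i (r i).1 (r i).2)

theorem pc_succ (f : ℕ → ℕ → ℕ → ℕ) (c0 : ℕ) (r : ℕ → ℕ × ℕ) (m : ℕ) :
    pc f c0 r (m + 1) = pc f c0 r m +
      (2 * Nat.dist (prevPos c0 r m) (r m).1 + f m (r m).1 (r m).2) := sum_range_succ _ _

theorem rcost_pc (f : ℕ → ℕ → ℕ → ℕ) (c0 v : ℕ) (r : ℕ → ℕ × ℕ) (m : ℕ) :
    rcost 2 m f c0 v r = pc f c0 r m + 2 * Nat.dist (prevPos c0 r m) v := rfl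

theorem tri (a b c : ℕ) : Nat.dist a c ≤ Nat.dist a b + Nat.dist b c := by
  unfold Nat.dist; omega

theorem prevPos_congr {c0 : ℕ} {r r' : ℕ → ℕ × ℕ} {k : ℕ} (h : ∀ i < k, r i = r' i) :
    prevPos c0 r k = prevPos c0 r' k := by
  cases k with
  | zero => rfl
  | succ k => show (r k).2 = (r' k).2; rw [h k (by omega)]

theorem pc_congr {f : ℕ → ℕ → ℕ → ℕ} {c0 : ℕ} {r r' : ℕ → ℕ × ℕ} {k : ℕ}
    (h : ∀ i < k, r i = r' i) : pc f c0 r k = pc f c0 r' k := by
  unfold pc
  refine sum_congr rfl fun i hi => ?_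
  have hi' := mem_range.1 hi
  rw [h i hi', prevPos_congr fun j hj => h j (by omega)]

section
variable {f : ℕ → ℕ → ℕ → ℕ}

/-- Displacements cost at least `2` per position. -/
theorem pc_disp (hlo : ∀ i p q, Row μ B l c0 i p q → 2 * Nat.dist p q ≤ f i p q)
    {r : ℕ → ℕ × ℕ} {m : ℕ} (hr : GoodR μ B l c0 m r) (a : ℕ) : ∀ t, a + t ≤ m →
    pc f c0 r a + 2 * Nat.dist (prevPos c0 r a) (prevPos c0 r (a + t)) ≤ pc f c0 r (a + t)
  | 0, _ => by simp [Nat.dist_self]
  | t + 1, h => by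
    have ih := pc_disp hlo hr a t (by omega)
    have h1 := hlo _ _ _ (hr (a + t) (by omega))
    have h2 : pc f c0 r (a + (t + 1)) = pc f c0 r (a + t) +
        (2 * Nat.dist (prevPos c0 r (a + t)) (r (a + t)).1 + f (a + t) (r (a + t)).1 (r (a + t)).2) :=
      pc_succ f c0 r (a + t)
    have h3 : prevPos c0 r (a + (t + 1)) = (r (a + t)).2 := rfl
    rw [h2, h3]
    have h4 := tri (prevPos c0 r a) (prevPos c0 r (a + t)) (r (a + t)).2
    have h5 := tri (prevPos c0 r (a + t)) (r (a + t)).1 (r (a + t)).2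
    omega

/-- The same with the shift before the row `a` separated, and with the last shift. -/
theorem pc_disp' (hlo : ∀ i p q, Row μ B l c0 i p q → 2 * Nat.dist p q ≤ f i p q)
    {r : ℕ → ℕ × ℕ} {m : ℕ} (hr : GoodR μ B l c0 m r) {a : ℕ} (ha : a < m) (v : ℕ) :
    pc f c0 r a + 2 * Nat.dist (prevPos c0 r a) (r a).1 + 2 * Nat.dist (r a).1 v ≤
      pc f c0 r m + 2 * Nat.dist (prevPos c0 r m) v := by
  obtain ⟨t, rfl⟩ := Nat.exists_eq_add_of_le (show a + 1 ≤ m from ha)
  have h1 := pc_disp hlo hr (a + 1) t le_rfl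
  have h2 := pc_succ f c0 r a
  have h3 := hlo _ _ _ (hr a ha)
  have h4 : prevPos c0 r (a + 1) = (r a).2 := rfl
  rw [h4] at h1
  have h5 := tri (r a).1 (r a).2 (prevPos c0 r (a + 1 + t))
  have h6 := tri (r a).1 (prevPos c0 r (a + 1 + t)) v
  omega

/-- Follow `r` through the rows `≤ k`, then `L`. -/
def splice (k : ℕ) (r : ℕ → ℕ × ℕ) (L : ℕ → ℕ) (i : ℕ) : ℕ × ℕ :=
  if i ≤ k then r i else (L i, L (i + 1))

theorem splice_le {k : ℕ} {r : ℕ → ℕ × ℕ} {L : ℕ → ℕ} {i : ℕ} (h : i ≤ k) :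
    splice k r L i = r i := if_pos h

theorem splice_gt {k : ℕ} {r : ℕ → ℕ × ℕ} {L : ℕ → ℕ} {i : ℕ} (h : k < i) :
    splice k r L i = (L i, L (i + 1)) := if_neg (by omega)

theorem splice_tame (hlo : ∀ i p q, Row μ B l c0 i p q → 2 * Nat.dist p q ≤ f i p q)
    (hhi : ∀ i p q, Row μ B l c0 i p q → f i p q ≤ 2 * l) {m k v : ℕ} {r : ℕ → ℕ × ℕ}
    {L : ℕ → ℕ} (hr : GoodR μ B l c0 (m + 1) r) (ht : Tame l c0 (m + 1) r) (hk : k < m)
    (h1 : ∀ i, k < i → i ≤ m → Row μ B l c0 i (L i) (L (i + 1))) (h2 : L (m + 1) = v)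
    (h3 : Nat.dist (L (k + 1)) v = (m - k) * l)
    (h4 : Nat.dist (r (k + 1)).1 v = Nat.dist (r (k + 1)).1 (L (k + 1)) + Nat.dist (L (k + 1)) v)
    (h5 : Nat.dist (r k).2 (L (k + 1)) ≤ 2 * l) :
    ∃ r', GoodR μ B l c0 (m + 1) r' ∧ Tame l c0 (m + 1) r' ∧
      Nat.dist (prevPos c0 r' (m + 1)) v ≤ 2 * l ∧
      pc f c0 r' (m + 1) + 2 * Nat.dist (prevPos c0 r' (m + 1)) v ≤
        pc f c0 r (m + 1) + 2 * Nat.dist (prevPos c0 r (m + 1)) v := by
  set r' := splice k r L with hr'
  have e0 : ∀ i < k + 1, r' i = r i := fun i hi => splice_le (by omega)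
  have e1 : prevPos c0 r' (k + 1) = (r k).2 := by
    show (r' k).2 = _
    rw [e0 k (by omega)]
  have hgood : GoodR μ B l c0 (m + 1) r' := by
    intro i hi
    rcases Nat.lt_or_ge k i with h | h
    · rw [hr', splice_gt h]; exact h1 i h (by omega)
    · rw [hr', splice_le h]; exact hr i hi
  have e2 : prevPos c0 r' (m + 1) = v := by
    show (r' m).2 = v
    rw [hr', splice_gt hk]
    exact h2
  refine ⟨r', hgood, ?_, ?_, ?_⟩
  · intro i hi
    rcases Nat.lt_or_ge i (k + 1) with h | h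
    · rw [e0 i h, prevPos_congr fun j hj => e0 j (by omega)]
      exact ht i hi
    · rcases Nat.eq_or_lt_of_le h with h' | h'
      · rw [← h', e1, hr', splice_gt (by omega)]
        exact h5
      · obtain ⟨j, rfl⟩ : ∃ j, i = j + 1 := ⟨i - 1, by omega⟩
        have e3 : prevPos c0 r' (j + 1) = L (j + 1) := by
          show (r' j).2 = _
          rw [hr', splice_gt (by omega)]
        rw [e3, hr', splice_gt (by omega), Nat.dist_self]
        exact Nat.zero_le _
  · rw [e2, Nat.dist_self]; exact Nat.zero_le _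
  · have key : ∀ t, t ≤ m - k → pc f c0 r' (k + 1 + t) +
        2 * Nat.dist (prevPos c0 r' (k + 1 + t)) (L (k + 1 + t)) ≤
        pc f c0 r (k + 1) + 2 * Nat.dist (r k).2 (L (k + 1)) + 2 * (t * l) := by
      intro t
      induction t with
      | zero =>
        intro _
        rw [Nat.add_zero, e1, pc_congr e0]
        omega
      | succ t ih =>
        intro ht'
        have ih := ih (by omega)
        have e4 : r' (k + 1 + t) = (L (k + 1 + t), L (k + 1 + t + 1)) := splice_gt (by omega)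
        have e5 : pc f c0 r' (k + 1 + (t + 1)) = pc f c0 r' (k + 1 + t) +
          (2 * Nat.dist (prevPos c0 r' (k + 1 + t)) (r' (k + 1 + t)).1 +
            f (k + 1 + t) (r' (k + 1 + t)).1 (r' (k + 1 + t)).2) := pc_succ f c0 r' (k + 1 + t)
        have e6 : prevPos c0 r' (k + 1 + (t + 1)) = L (k + 1 + (t + 1)) := by
          show (r' (k + 1 + t)).2 = _
          rw [e4]; rfl
        have e7 := hhi _ _ _ (h1 (k + 1 + t) (by omega) (by omega))
        rw [e5, e6, e4, Nat.dist_self]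
        have e8 : (t + 1) * l = t * l + l := by ring
        show _ + (2 * Nat.dist (prevPos c0 r' (k + 1 + t)) (L (k + 1 + t)) +
          f (k + 1 + t) (L (k + 1 + t)) (L (k + 1 + t + 1))) + 2 * 0 ≤ _
        omega
    have key1 := key (m - k) le_rfl
    have e9 : k + 1 + (m - k) = m + 1 := by omega
    rw [e9, h2] at key1
    have key2 := pc_disp' hlo hr (a := k + 1) (by omega) v
    have e10 : prevPos c0 r (k + 1) = (r k).2 := rfl
    rw [e10, h4] at key2
    have e11 := tri (r k).2 (r (k + 1)).1 (L (k + 1))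
    rw [← h3] at key1
    omega

theorem exists_cross {Q : ℕ → Prop} {m : ℕ} (h0 : Q 0) (hm : ¬ Q m) :
    ∃ k < m, Q k ∧ ¬ Q (k + 1) := by
  induction m with
  | zero => exact absurd h0 hm
  | succ m ih =>
    by_cases h : Q m
    · exact ⟨m, by omega, h, hm⟩
    · obtain ⟨k, hk, h1⟩ := ih h
      exact ⟨k, by omega, h1⟩

theorem line_succ {l m i : ℕ} (h : i ≤ m) :
    (m + 1 - i) * l = (m + 1 - (i + 1)) * l + l := by
  have : m + 1 - i = m + 1 - (i + 1) + 1 := by omega
  rw [this]; ring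

/-- **Taming, goal on the mesh.** -/
theorem tame_mesh (hμ : μ ∣ l)
    (hlo : ∀ i p q, Row μ B l c0 i p q → 2 * Nat.dist p q ≤ f i p q)
    (hhi : ∀ i p q, Row μ B l c0 i p q → f i p q ≤ 2 * l) : ∀ (m v : ℕ) (r : ℕ → ℕ × ℕ),
    GoodR μ B l c0 m r → InCone l c0 m v → μ ∣ v → v ≤ B →
    ∃ r', GoodR μ B l c0 m r' ∧ Tame l c0 m r' ∧ Nat.dist (prevPos c0 r' m) v ≤ 2 * l ∧
      pc f c0 r' m + 2 * Nat.dist (prevPos c0 r' m) v ≤
        pc f c0 r m + 2 * Nat.dist (prevPos c0 r m) v
  | 0, v, r, hr, hc, _, _ => by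
    refine ⟨r, hr, fun i hi => absurd hi (Nat.not_lt_zero i), ?_, le_rfl⟩
    have h1 := hc.1
    have h2 := hc.2
    show Nat.dist c0 v ≤ _
    unfold Nat.dist
    omega
  | m + 1, v, r, hr, hc, hv, hvB => by
    have hrm := hr m (by omega)
    obtain ⟨r1, g1, t1, d1, c1⟩ := tame_mesh hμ hlo hhi m (r m).1 r (fun i hi => hr i (by omega))
      hrm.cp hrm.dp hrm.pB
    -- the tame route to the last row, then the last row of `r`
    set r2 : ℕ → ℕ × ℕ := fun i => if i < m then r1 i else r i with hr2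
    have e1 : ∀ i < m, r2 i = r1 i := fun i hi => if_pos hi
    have e2 : r2 m = r m := if_neg (by omega)
    have e3 : prevPos c0 r2 m = prevPos c0 r1 m := prevPos_congr e1
    have e4 : prevPos c0 r2 (m + 1) = (r m).2 := by
      show (r2 m).2 = _
      rw [e2]
    have g2 : GoodR μ B l c0 (m + 1) r2 := by
      intro i hi
      rcases Nat.lt_or_ge i m with h | h
      · rw [e1 i h]; exact g1 i h
      · obtain rfl : i = m := by omega
        rw [e2]; exact hrm
    have t2 : Tame l c0 (m + 1) r2 := by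
      intro i hi
      rcases Nat.lt_or_ge i m with h | h
      · rw [e1 i h, prevPos_congr fun j hj => e1 j (by omega)]
        exact t1 i h
      · obtain rfl : i = m := by omega
        rw [e2, e3]
        exact d1
    have c2 : pc f c0 r2 (m + 1) + 2 * Nat.dist (prevPos c0 r2 (m + 1)) v ≤
        pc f c0 r (m + 1) + 2 * Nat.dist (prevPos c0 r (m + 1)) v := by
      rw [pc_succ, pc_succ, e2, e3, e4, pc_congr e1]
      show _ ≤ _ + 2 * Nat.dist (r m).2 v
      omega
    by_cases hd : Nat.dist (prevPos c0 r2 (m + 1)) v ≤ 2 * l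
    · exact ⟨r2, g2, t2, hd, c2⟩
    rw [e4] at hd
    have hq1 := hrm.a1
    have hq2 := hrm.a2
    have hc1 := hc.1
    have hc2 := hc.2
    have em : (m + 1) * l = m * l + l := by ring
    have hp0 := (g2 0 (by omega)).cp
    have hp01 := hp0.1
    have hp02 := hp0.2
    have hsum : ∀ i ≤ m + 1, (m + 1 - i) * l + i * l = (m + 1) * l := fun i hi => by
      rw [← Nat.add_mul]; congr 1; omega
    suffices hsplice : ∃ (k : ℕ) (L : ℕ → ℕ), k < m ∧
        (∀ i, k < i → i ≤ m → Row μ B l c0 i (L i) (L (i + 1))) ∧ L (m + 1) = v ∧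
        Nat.dist (L (k + 1)) v = (m - k) * l ∧
        Nat.dist (r2 (k + 1)).1 v =
          Nat.dist (r2 (k + 1)).1 (L (k + 1)) + Nat.dist (L (k + 1)) v ∧
        Nat.dist (r2 k).2 (L (k + 1)) ≤ 2 * l by
      obtain ⟨k, L, hk, s1, s2, s3, s4, s5⟩ := hsplice
      obtain ⟨r', a1, a2, a3, a4⟩ := splice_tame hlo hhi g2 t2 hk s1 s2 s3 s4 s5
      exact ⟨r', a1, a2, a3, a4.trans c2⟩
    rcases le_total (r m).2 v with hdir | hdir
    · -- the shift goes up
      have hbig : (r m).2 + 2 * l < v := by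
        unfold Nat.dist at hd; omega
      set L : ℕ → ℕ := fun i => v - (m + 1 - i) * l with hL
      have hQ0 : L 0 ≤ (r2 0).1 := by simp only [hL, Nat.sub_zero]; omega
      have hQm : ¬ L m ≤ (r2 m).1 := by
        rw [e2]
        simp only [hL, Nat.add_sub_cancel_left]
        omega
      obtain ⟨k, hk, hk1, hk2⟩ := exists_cross (Q := fun i => L i ≤ (r2 i).1) hQ0 hQm
      have hk2' : (r2 (k + 1)).1 < L (k + 1) := Nat.lt_of_not_le hk2
      have hkv : (m + 1 - (k + 1)) * l < v := by simp only [hL] at hk2'; omega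
      have hmono : ∀ i, k < i → i ≤ m + 1 → (m + 1 - i) * l ≤ (m + 1 - (k + 1)) * l :=
        fun i h1 h2 => Nat.mul_le_mul_right l (by omega)
      have gk := g2 (k + 1) (by omega)
      have gk1 := gk.cp.1
      refine ⟨k, L, hk, fun i h1 h2 => ?_, ?_, ?_, ?_, ?_⟩
      · have hi := hmono i h1 (by omega)
        have hi' := hmono (i + 1) (by omega) (by omega)
        have hls := line_succ (l := l) h2
        have hs1 := hsum i (by omega)
        have hs2 := hsum (i + 1) (by omega)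
        have hki : (k + 1) * l ≤ i * l := Nat.mul_le_mul_right l (by omega)
        have e5 : (i + 1) * l = i * l + l := by ring
        refine ⟨?_, ?_, ?_, ?_, ?_, ?_, ⟨?_, ?_⟩, ⟨?_, ?_⟩⟩
        · exact Nat.dvd_sub hv (hμ.mul_left _)
        · exact Nat.dvd_sub hv (hμ.mul_left _)
        · exact (Nat.sub_le _ _).trans hvB
        · exact (Nat.sub_le _ _).trans hvB
        all_goals simp only [hL] at hk2' ⊢; omega
      · simp only [hL, Nat.sub_self, Nat.zero_mul, Nat.sub_zero]
      · have e6 : m + 1 - (k + 1) = m - k := by omega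
        simp only [hL, e6] at hkv ⊢
        unfold Nat.dist
        omega
      · simp only [hL] at hk2' ⊢
        unfold Nat.dist
        omega
      · have gk0 := g2 k (by omega)
        have a1 := gk0.a1
        have a2 := gk0.a2
        have a3 := t2 (k + 1) (by omega)
        have e7 : prevPos c0 r2 (k + 1) = (r2 k).2 := rfl
        rw [e7] at a3
        have hls := line_succ (l := l) (show k ≤ m by omega)
        simp only [hL] at hk1 hk2' ⊢
        unfold Nat.dist at a3 ⊢
        omega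
    · -- the shift goes down
      have hbig : v + 2 * l < (r m).2 := by
        unfold Nat.dist at hd; omega
      set L : ℕ → ℕ := fun i => v + (m + 1 - i) * l with hL
      have hQ0 : (r2 0).1 ≤ L 0 := by simp only [hL, Nat.sub_zero]; omega
      have hQm : ¬ (r2 m).1 ≤ L m := by
        rw [e2]
        simp only [hL, Nat.add_sub_cancel_left]
        omega
      obtain ⟨k, hk, hk1, hk2⟩ := exists_cross (Q := fun i => (r2 i).1 ≤ L i) hQ0 hQm
      have hk2' : L (k + 1) < (r2 (k + 1)).1 := Nat.lt_of_not_le hk2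
      have hmono : ∀ i, k < i → i ≤ m + 1 → (m + 1 - i) * l ≤ (m + 1 - (k + 1)) * l :=
        fun i h1 h2 => Nat.mul_le_mul_right l (by omega)
      have gk := g2 (k + 1) (by omega)
      have gk1 := gk.cp.2
      have gkB := gk.pB
      refine ⟨k, L, hk, fun i h1 h2 => ?_, ?_, ?_, ?_, ?_⟩
      · have hi := hmono i h1 (by omega)
        have hi' := hmono (i + 1) (by omega) (by omega)
        have hls := line_succ (l := l) h2
        have hs1 := hsum i (by omega)
        have hs2 := hsum (i + 1) (by omega)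
        have hki : (k + 1) * l ≤ i * l := Nat.mul_le_mul_right l (by omega)
        have e5 : (i + 1) * l = i * l + l := by ring
        refine ⟨?_, ?_, ?_, ?_, ?_, ?_, ⟨?_, ?_⟩, ⟨?_, ?_⟩⟩
        · exact Nat.dvd_add hv (hμ.mul_left _)
        · exact Nat.dvd_add hv (hμ.mul_left _)
        all_goals simp only [hL] at hk2' ⊢; omega
      · simp only [hL, Nat.sub_self, Nat.zero_mul, Nat.add_zero]
      · have e6 : m + 1 - (k + 1) = m - k := by omega
        simp only [hL, e6]
        unfold Nat.dist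
        omega
      · simp only [hL] at hk2' ⊢
        unfold Nat.dist
        omega
      · have gk0 := g2 k (by omega)
        have a1 := gk0.a1
        have a2 := gk0.a2
        have a3 := t2 (k + 1) (by omega)
        have e7 : prevPos c0 r2 (k + 1) = (r2 k).2 := rfl
        rw [e7] at a3
        have hls := line_succ (l := l) (show k ≤ m by omega)
        simp only [hL] at hk1 hk2' ⊢
        unfold Nat.dist at a3 ⊢
        omega

theorem prev_cone {m : ℕ} {r : ℕ → ℕ × ℕ} (hr : GoodR μ B l c0 m r) :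
    InCone l c0 m (prevPos c0 r m) := by
  cases m with
  | zero => show InCone l c0 0 c0; unfold InCone; omega
  | succ m => exact (hr m (by omega)).cq

theorem prev_dvd (h0 : μ ∣ c0) {m : ℕ} {r : ℕ → ℕ × ℕ} (hr : GoodR μ B l c0 m r) :
    μ ∣ prevPos c0 r m := by
  cases m with
  | zero => exact h0
  | succ m => exact (hr m (by omega)).dq

theorem prev_le (h0 : c0 ≤ B) {m : ℕ} {r : ℕ → ℕ × ℕ} (hr : GoodR μ B l c0 m r) :
    prevPos c0 r m ≤ B := by
  cases m with
  | zero => exact h0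
  | succ m => exact (hr m (by omega)).qB

/-- A mesh point next to `v`, between `v` and the mesh point `q`. -/
theorem exists_mesh_next (hμ : 0 < μ) (hμl : μ ∣ l) (h0 : μ ∣ c0) {m q v : ℕ} (hq : μ ∣ q)
    (hqc : InCone l c0 m q) (hqB : q ≤ B) (hv : InCone l c0 m v) (hvB : v ≤ B) :
    ∃ v', μ ∣ v' ∧ v' ≤ B ∧ InCone l c0 m v' ∧ Nat.dist v' v ≤ μ ∧
      Nat.dist q v = Nat.dist q v' + Nat.dist v' v := by
  have hv1 := hv.1
  have hv2 := hv.2
  have hq1 := hqc.1
  have hq2 := hqc.2
  have hflr : ∀ a, μ ∣ a → H140.flr μ a = a := fun a ha => Nat.div_mul_cancel ha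
  rcases le_or_gt q v with h | h
  · have a1 := H140.flr_le μ v
    have a2 := H140.lt_flr_add hμ v
    have a3 : q ≤ H140.flr μ v := by
      have := H140.flr_mono μ h
      rwa [hflr q hq] at this
    have a4 : c0 ≤ H140.flr μ v + m * l := by
      have := H140.flr_mono μ hv1
      rwa [hflr c0 h0, H140.flr_add (hμl.mul_left m)] at this
    refine ⟨H140.flr μ v, H140.dvd_flr _ _, a1.trans hvB, ⟨a4, a1.trans hv2⟩, ?_, ?_⟩
    all_goals unfold Nat.dist; omega
  · have a1 := H140.flr_le μ (v + μ - 1)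
    have a2 := H140.lt_flr_add hμ (v + μ - 1)
    have a3 : H140.flr μ (v + μ - 1) ≤ q := by
      have h1 : v + μ - 1 ≤ (q - 1) + μ - 1 := by omega
      obtain ⟨c, hc⟩ := hq
      have hdv := H140.dvd_flr μ (v + μ - 1)
      obtain ⟨e, he⟩ := hdv
      rw [he] at a1 ⊢
      rw [hc] at h ⊢
      have h2 : μ * e < μ * (c + 1) := by
        rw [Nat.mul_add, Nat.mul_one]; omega
      have h3 : e < c + 1 := Nat.lt_of_mul_lt_mul_left h2
      exact Nat.mul_le_mul_left μ (by omega)
    refine ⟨H140.flr μ (v + μ - 1), H140.dvd_flr _ _, a3.trans hqB, ⟨?_, ?_⟩, ?_, ?_⟩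
    · omega
    · omega
    all_goals unfold Nat.dist; omega

/-- **Taming, any goal.** -/
theorem tame_any (hμ : 0 < μ) (hμl : μ ∣ l) (h0 : μ ∣ c0) (h0B : c0 ≤ B)
    (hlo : ∀ i p q, Row μ B l c0 i p q → 2 * Nat.dist p q ≤ f i p q)
    (hhi : ∀ i p q, Row μ B l c0 i p q → f i p q ≤ 2 * l) {m v : ℕ} {r : ℕ → ℕ × ℕ}
    (hr : GoodR μ B l c0 m r) (hv : InCone l c0 m v) (hvB : v ≤ B) :
    ∃ r', GoodR μ B l c0 m r' ∧ Tame l c0 m r' ∧
      Nat.dist (prevPos c0 r' m) v ≤ 2 * l + μ ∧
      pc f c0 r' m + 2 * Nat.dist (prevPos c0 r' m) v ≤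
        pc f c0 r m + 2 * Nat.dist (prevPos c0 r m) v := by
  obtain ⟨v', b1, b2, b3, b4, b5⟩ := exists_mesh_next hμ hμl h0 (prev_dvd h0 hr) (prev_cone hr)
    (prev_le h0B hr) hv hvB
  obtain ⟨r', g, t, d, c⟩ := tame_mesh hμl hlo hhi m v' r hr b3 b1 b2
  have h1 := tri (prevPos c0 r' m) v' v
  exact ⟨r', g, t, by omega, by omega⟩

end

/-! ### The optimal route -/

variable {P : Par} {l2 : ℕ}

theorem row_ed (F : Frame P l2 c0) {i p q : ℕ} (h : Row P.μ P.B l2 c0 i p q) : H140.Ed P p q :=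
  ⟨h.dp, h.dq, h.pB, h.qB, (F.adm p q).2 ⟨h.a1, h.a2⟩⟩

/-- **The optimal mesh route can be chosen with bounded rows.** -/
theorem exists_pstarM_tame (F : Frame P l2 c0) (X Y : ℕ → ℕ) (K v : ℕ) (hv : InCone l2 c0 K v)
    (hvB : v ≤ P.B) :
    ∃ pos q D, PStarM P X Y l2 c0 K v pos q D ∧ ∀ i < K, D i ≤ 6 * l2 + 2 * P.μ := by
  obtain ⟨r, hr, he⟩ := H140.best_route (f := hidM X Y l2 c0) F.edge 0 K c0 v
  simp only [Nat.zero_add, F.sh] at he
  have hr1 : P.RouteOK K (clr l2 c0 r) := routeOK_clr F hr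
  have hg1 : GoodR P.μ P.B l2 c0 K (clr l2 c0 r) := by
    intro i hi
    obtain ⟨h1, h2, h3, h4, h5⟩ := hr1 i hi
    have h6 := (F.adm _ _).1 h5
    exact ⟨h1, h2, h3, h4, h6.1, h6.2, clc_cone i _, clc_cone (i + 1) _⟩
  obtain ⟨r', hg, ht, hd, hc⟩ := tame_any (f := hidM X Y l2 c0) F.μ_pos F.dvd_l2 F.dvd_c0 F.le_B
    (fun i p q h => two_dist_le_hidM X Y h.a1 h.a2 h.cp h.cq)
    (fun i p q h => hidM_le X Y h.a1 h.a2) hg1 hv hvB
  rw [← rcost_pc, ← rcost_pc] at hc
  have hr' : P.RouteOK K r' := fun i hi => row_ed F (hg i hi)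
  have hle := hc.trans (rcost_clr X Y K v r hv)
  have hge := H140.best_le_rcost (f := hidM X Y l2 c0) 0 K c0 v r' hr'
  simp only [Nat.zero_add, F.sh] at hge
  have heq : rcost 2 K (hidM X Y l2 c0) c0 v r' = best P (hidM X Y l2 c0) 0 K c0 v :=
    le_antisymm (hle.trans he.le) hge
  set pos : ℕ → ℕ := fun i => if i < K then (r' i).1 else v with hpos
  have hcone0 : ∀ p, InCone l2 c0 0 p → p = c0 := by
    intro p hp; have := hp.1; have := hp.2; omega
  have hcone : ∀ i ≤ K, InCone l2 c0 i (pos i) := by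
    intro i hi
    simp only [hpos]
    split_ifs with h
    · exact (hg i h).cp
    · rw [show i = K by omega]; exact hv
  have hzero : pos 0 = c0 := hcone0 _ (hcone 0 (Nat.zero_le _))
  have hp : ∀ i < K, pos i = (r' i).1 := fun i hi => by simp only [hpos, if_pos hi]
  have hlast : pos K = v := by simp only [hpos, if_neg (Nat.lt_irrefl K)]
  set D : ℕ → ℕ := fun i => hidM X Y l2 c0 i (pos i) (r' i).2 +
    2 * Nat.dist (r' i).2 (pos (i + 1)) with hD
  have hedge : ∀ i < K, H140.Ed P (pos i) (r' i).2 := by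
    intro i hi
    rw [hp i hi]
    exact hr' i hi
  have htot : ∑ i ∈ range K, D i = best P (hidM X Y l2 c0) 0 K c0 v := by
    rw [← heq, ← sum_regroup (hidM X Y l2 c0) c0 r' pos K hzero hp K le_rfl, hlast]
    rfl
  have hup : ∀ i m, i + m ≤ K →
      best P (hidM X Y l2 c0) i m (pos i) (pos (i + m)) ≤ ∑ k ∈ range m, D (i + k) := by
    intro i m him
    refine H140.best_le_sum F.edge i m pos D fun k hk => ?_
    refine ⟨_, _, hedge (i + k) (by omega), ?_⟩
    rw [Nat.dist_self, Nat.mul_zero, Nat.zero_add, F.sh]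
  refine ⟨pos, fun i => (r' i).2, D, ⟨hzero, hlast, hcone, fun i hi => (hg i hi).cq, hedge,
    fun i _ => rfl, fun i m him => le_antisymm (hup i m him) ?_⟩, fun i hi => ?_⟩
  · have h1 := H140.best_add (P := P) (f := hidM X Y l2 c0) F.edge 0 i (K - i) (pos 0) (pos i)
      (pos K)
    have h2 := H140.best_add (P := P) (f := hidM X Y l2 c0) F.edge i m (K - i - m) (pos i)
      (pos (i + m)) (pos K)
    rw [show i + (K - i) = K by omega] at h1
    rw [show m + (K - i - m) = K - i by omega] at h2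
    have h3 := hup 0 i (by omega)
    have h4 := hup (i + m) (K - i - m) (by omega)
    rw [show i + m + (K - i - m) = K by omega] at h4
    simp only [Nat.zero_add] at h1 h3
    rw [hzero, hlast, ← htot] at h1
    rw [hlast] at h2 h4
    have hsplit : ∑ i ∈ range K, D i = ∑ k ∈ range i, D k + (∑ k ∈ range m, D (i + k) +
        ∑ k ∈ range (K - i - m), D (i + m + k)) := by
      conv_lhs => rw [show K = i + (m + (K - i - m)) by omega]
      rw [Finset.sum_range_add, Finset.sum_range_add]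
      simp only [Nat.add_assoc]
    rw [hzero] at h3
    omega
  · have h1 := hidM_le (c0 := c0) (i := i) X Y (hg i hi).a1 (hg i hi).a2
    have h2 : Nat.dist (r' i).2 (pos (i + 1)) ≤ 2 * l2 + P.μ := by
      rcases Nat.lt_or_ge (i + 1) K with h | h
      · rw [hp (i + 1) h]
        exact (ht (i + 1) h).trans (Nat.le_add_right _ _)
      · have e : i + 1 = K := by omega
        rw [e, hlast]
        have e2 : prevPos c0 r' K = (r' i).2 := by rw [← e]; rfl
        rw [← e2]
        exact hd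
    simp only [hD]
    rw [hp i hi]
    omega

/-- The route for two strings, with bounded rows. -/
theorem exists_pstarM_strings_tame (F : Frame P l2 c0) (x y : List ℕ) (K : ℕ)
    (h : x.length + y.length ≤ K * (2 * l2)) (hc : K * l2 ≤ c0) (hB : c0 + K * l2 ≤ P.B) :
    ∃ pos q D, PStarM P (fun i => x.getD i 0) (fun i => y.getD i 0) l2 c0 K
      (pend x y l2 c0 K) pos q D ∧ ∑ i ∈ range K, D i ≤ ED x y + 1 + K * (8 * P.μ + 2) ∧
      ED x y ≤ ∑ i ∈ range K, D i + 1 ∧ ∀ i < K, D i ≤ 6 * l2 + 2 * P.μ := by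
  have hcone := pend_cone h hc
  obtain ⟨pos, q, D, hP, hD⟩ := exists_pstarM_tame F (fun i => x.getD i 0) (fun i => y.getD i 0) K
    (pend x y l2 c0 K) hcone (hcone.2.trans hB)
  refine ⟨pos, q, D, hP, ?_, ?_, hD⟩
  · rw [hP.sum_eq]
    exact best_le_EDM F x y K h hc hB
  · rw [hP.sum_eq]
    have h1 := best_certM F (fun i => x.getD i 0) (fun i => y.getD i 0)
      (hidM (fun i => x.getD i 0) (fun i => y.getD i 0) l2 c0) 0 K c0 (pend x y l2 c0 K)
      fun _ _ _ _ => le_rfl
    rw [preM_start, Nat.zero_add, Nat.zero_add] at h1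
    have h2 := (En_final x y _ h).1
    rw [ED_eq_lev]
    unfold preM at h1
    rw [xi_pend h hc] at h1
    simp only [En, Ed, Nat.sub_zero] at h2
    exact h2.trans (Nat.add_le_add_right h1 1)

end Vale.Agent.P315.H95
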